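import Vale.Agent.P290.H805.TubeEx
import Vale.Agent.P290.H801.Lim

/-! The Oka fibres of a family: a countable intersection of sets which are the union of an open and
a closed set. -/

open Set Filter TopologicalSpace
open scoped Topology Manifold ContDiff

namespace Vale.Agent.P290.H805

open Vale.Agent.P290 Vale.Agent.P290.K Vale.Agent.P290.H580 Vale.Agent.P290.H801

section graph
variable {V E : Type} [TopologicalSpace V] [TopologicalSpace E]

/-- finitely many constraints on a graph -/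
def OO (BV : ℕ → Set V) (BE : ℕ → Set E) (δ : Finset (ℕ × ℕ)) : Set (V × E) :=
  {q | ∀ p ∈ δ, q.1 ∈ closure (BV p.1) → q.2 ∈ BE p.2}

theorem isOpen_OO {BV : ℕ → Set V} {BE : ℕ → Set E} (hE : ∀ k, IsOpen (BE k))
    (δ : Finset (ℕ × ℕ)) : IsOpen (OO BV BE δ) := by
  have : OO BV BE δ = ⋂ p ∈ δ, ((Prod.fst ⁻¹' (closure (BV p.1))ᶜ) ∪ Prod.snd ⁻¹' (BE p.2)) := by
    ext q
    simp only [OO, mem_ofPred_eq, mem_iInter, mem_union, mem_preimage, mem_compl_iff]
    exact forall₂_congr fun p _ => by tauto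
  rw [this]
  refine isOpen_biInter_finset fun p _ => ?_
  exact (isClosed_closure.isOpen_compl.preimage continuous_fst).union
    ((hE p.2).preimage continuous_snd)

/-- between the graph of a continuous map on a compact set and a neighbourhood of it there is
one of the sets `OO δ` -/
theorem exists_OO [RegularSpace V] {BV : ℕ → Set V} {BE : ℕ → Set E}
    (hV : IsTopologicalBasis (range BV)) (hE : IsTopologicalBasis (range BE)) {K : Set V}
    (hK : IsCompact K) {c : V → E} (hc : ∀ z ∈ K, ContinuousAt c z) {N : Set (V × E)}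
    (hN : ∀ z ∈ K, N ∈ 𝓝 (z, c z)) :
    ∃ δ, (∀ z ∈ K, (z, c z) ∈ OO BV BE δ) ∧ ∀ z ∈ K, ∀ x, (z, x) ∈ OO BV BE δ → (z, x) ∈ N := by
  classical
  have h1 : ∀ z ∈ K, ∃ n k, z ∈ BV n ∧ IsOpen (BV n) ∧ (∀ y ∈ closure (BV n), c y ∈ BE k) ∧
      ∀ y ∈ BV n, ∀ x ∈ BE k, (y, x) ∈ N := by
    intro z hz
    obtain ⟨U, hU, W, hW, hUW⟩ := mem_nhds_prod_iff.1 (hN z hz)
    obtain ⟨_, ⟨k, rfl⟩, hk1, hk2⟩ := hE.mem_nhds_iff.1 hW
    have hS : U ∩ {y | c y ∈ BE k} ∈ 𝓝 z :=
      inter_mem hU ((hc z hz).eventually ((hE.isOpen (mem_range_self k)).mem_nhds hk1))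
    obtain ⟨S, hS1, hS2, hS3⟩ := exists_mem_nhds_isClosed_subset hS
    obtain ⟨_, ⟨n, rfl⟩, hn1, hn2⟩ := hV.mem_nhds_iff.1 hS1
    have hcl : closure (BV n) ⊆ S := closure_minimal hn2 hS2
    exact ⟨n, k, hn1, hV.isOpen (mem_range_self n), fun y hy => (hS3 (hcl hy)).2,
      fun y hy x hx => hUW ⟨(hS3 (hn2 hy)).1, hk2 hx⟩⟩
  choose! n k hn ho hcl hUW using h1
  obtain ⟨s, hsK, hs⟩ := hK.elim_nhds_subcover (fun z => BV (n z))
    fun z hz => (ho z hz).mem_nhds (hn z hz)
  refine ⟨s.image fun z => (n z, k z), ?_, ?_⟩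
  · rintro z - p hp hz
    obtain ⟨a, ha, rfl⟩ := Finset.mem_image.1 hp
    exact hcl a (hsK a ha) z hz
  · intro z hz x hx
    obtain ⟨a, ha, hza⟩ := mem_iUnion₂.1 (hs hz)
    exact hUW a (hsK a ha) z hza x
      (hx (n a, k a) (Finset.mem_image_of_mem _ ha) (subset_closure hza))

end graph

section fam
variable {T E : Type} [TopologicalSpace T] [TopologicalSpace E] (F : Family T E)
variable {V : Type} [NormedAddCommGroup V] [NormedSpace ℂ V]

/-- the parameters `t` for which there is a holomorphic map from a neighbourhood of `L` to the fibre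
over `t` whose graph over `K` lies in `N` -/
def SB (K L : Set V) (N : Set (V × E)) : Set T :=
  {t | ∃ u : V → E, (∀ᶠ z in 𝓝ˢ L, FH F t u z) ∧ ∀ z ∈ K, (z, u z) ∈ N}

theorem isOpen_SB [FiniteDimensional ℂ V] {K L : Set V} {N : Set (V × E)} (hL : Good L)
    (hK : IsClosed K) (hKL : K ⊆ L) (hN : IsOpen N) : IsOpen (SB F K L N) := by
  rw [isOpen_iff_mem_nhds]
  rintro t₀ ⟨u₀, h1, h2⟩
  have h3 := deformation hL h1 {q | q.1 ∈ K → q ∈ N} (fun z _ => by
    by_cases hzK : z ∈ K
    · exact mem_of_superset (hN.mem_nhds (h2 z hzK)) fun q hq _ => hq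
    · have : Prod.fst ⁻¹' Kᶜ ∈ 𝓝 (z, u₀ z) :=
        (hK.isOpen_compl.preimage continuous_fst).mem_nhds hzK
      exact mem_of_superset this fun q hq hq' => absurd hq' hq)
  filter_upwards [h3] with t ht
  obtain ⟨u, hu1, hu2⟩ := ht
  exact ⟨u, hu1, fun z hz => hu2 z (hKL hz) hz⟩

end fam

section main
variable {T E : Type} [TopologicalSpace T] [TopologicalSpace E]

theorem holV_const {X : Type} [TopologicalSpace X] [ChartedSpace C2 X] {m : ℕ} (x : X)
    (z : Fin m → ℂ) : All.HolV (fun _ => x) z :=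
  ⟨continuousAt_const, differentiableAt_const _⟩

theorem isOka_fib_iff (F : Family T E) (t : T) [T2Space (Fib F t)] [CompactSpace (Fib F t)]
    {𝒦 : ∀ m, ℕ → Set (Fin m → ℂ)} (h𝒦 : ∀ m n, Good (𝒦 m n))
    (hcof : ∀ m (K U : Set (Fin m → ℂ)), Good K → IsOpen U → K ⊆ U → ∃ n, K ⊆ 𝒦 m n ∧ 𝒦 m n ⊆ U)
    {BV : ∀ m, ℕ → Set (Fin m → ℂ)} {BE : ℕ → Set E}
    (hV : ∀ m, IsTopologicalBasis (range (BV m))) (hE : IsTopologicalBasis (range BE)) :
    All.IsOka (Fib F t) ↔ ∀ m i j δ, (𝒦 m i).Nonempty → 𝒦 m i ⊆ 𝒦 m j →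
      t ∈ SB F (𝒦 m i) (𝒦 m i) (OO (BV m) BE δ) → t ∈ SB F (𝒦 m i) (𝒦 m j) (OO (BV m) BE δ) := by
  classical
  have hEo : ∀ k, IsOpen (BE k) := fun k => hE.isOpen (mem_range_self k)
  constructor
  · intro hO m i j δ hne hij ⟨u, hu1, hu2⟩
    rcases Nat.eq_zero_or_pos m with rfl | hm
    · have hi : 𝒦 0 i = univ := Subsingleton.eq_univ_of_nonempty hne
      have hj : 𝒦 0 j = univ := Subsingleton.eq_univ_of_nonempty (hne.mono hij)
      refine ⟨u, ?_, hu2⟩
      rwa [hj, ← hi]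
    have : SecondCountableTopology (Fib F t) :=
      ChartedSpace.secondCountable_of_sigmaCompact C2 (Fib F t)
    let _ : MetricSpace (Fib F t) := TopologicalSpace.metrizableSpaceMetric (Fib F t)
    obtain ⟨U, hUo, hKU, hU⟩ := mem_nhdsSet_iff_exists.1 hu1
    have hpt : ∀ z ∈ U, F.p (u z) = t := fun z hz => (hU hz).1.self_of_nhds
    obtain ⟨z₀, hz₀⟩ := hne
    let f : (Fin m → ℂ) → Fib F t := fun z =>
      if h : F.p (u z) = t then ⟨u z, h⟩ else ⟨u z₀, hpt z₀ (hKU hz₀)⟩
    have hf : ∀ z ∈ U, (f z).1 = u z := fun z hz => by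
      simp only [f, dif_pos (hpt z hz)]
    have hfH : ∀ z ∈ U, All.HolV f z := fun z hz => by
      rw [holV_fib_iff]
      refine FH.congr (hU hz) ?_
      filter_upwards [hUo.mem_nhds hz] with y hy using hf y hy
    obtain ⟨ε, hε, hεN⟩ := unif_nbhd (h𝒦 m i).1 f (fun z hz => (hfH z (hKU hz)).1)
      {q | (q.1, q.2.1) ∈ OO (BV m) BE δ} (fun z hz => by
        have hc : Continuous fun q : (Fin m → ℂ) × Fib F t => (q.1, q.2.1) :=
          continuous_fst.prodMk (continuous_val.comp continuous_snd)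
        refine ((isOpen_OO hEo δ).preimage hc).mem_nhds ?_
        change (z, (f z).1) ∈ OO (BV m) BE δ
        rw [hf z (hKU hz)]
        exact hu2 z hz)
    obtain ⟨G, hG1, hG2⟩ := hO m (𝒦 m i) U hm (h𝒦 m i).1 (h𝒦 m i).2 ⟨z₀, hz₀⟩ hUo hKU f hfH
      dist continuous_dist dist_self ε hε
    refine ⟨fun z => (G z).1, Eventually.of_forall fun z => holV_fib_iff.1 (hG1 z), fun z hz => ?_⟩
    exact hεN z hz (G z) (hG2 z hz)
  · intro h
    refine isOka_of_local (fun m => range (𝒦 m)) ?_ ?_ ?_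
    · rintro m _ ⟨n, rfl⟩
      exact h𝒦 m n
    · intro m K U hK hU hKU
      obtain ⟨n, h1, h2⟩ := hcof m K U hK hU hKU
      exact ⟨_, ⟨n, rfl⟩, h1, h2⟩
    · rintro m _ ⟨i, rfl⟩ _ ⟨j, rfl⟩ hij f hf d hd hd0 ε hε
      rcases eq_empty_or_nonempty (𝒦 m i) with hemp | hne
      · exact ⟨fun _ => f 0, Eventually.of_forall fun z => holV_const _ z,
          fun z hz => by rw [hemp] at hz; exact absurd hz (notMem_empty z)⟩
      have hfc : ∀ z ∈ 𝒦 m i, ContinuousAt f z := fun z hz => (hf.self_of_nhdsSet z hz).1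
      have hind : Topology.IsInducing
          (fun q : (Fin m → ℂ) × Fib F t => ((q.1, q.2.1) : (Fin m → ℂ) × E)) :=
        Topology.IsInducing.id.prodMap isInducing_val
      obtain ⟨δ, hδ1, hδ2⟩ := exists_OO (hV m) hE (h𝒦 m i).1 (c := fun z => (f z).1)
        (fun z hz => ContinuousAt.comp (g := Fib.val) (f := f) continuous_val.continuousAt
          (hfc z hz))
        (N := {q | ∀ x : Fib F t, x.1 = q.2 → d x (f q.1) < ε}) (fun z hz => by
          have c1 : ContinuousAt (fun q : (Fin m → ℂ) × Fib F t => d q.2 (f q.1)) (z, f z) := by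
            refine ContinuousAt.comp (g := fun q : Fib F t × Fib F t => d q.1 q.2)
              (f := fun q : (Fin m → ℂ) × Fib F t => (q.2, f q.1)) hd.continuousAt ?_
            refine continuous_snd.continuousAt.prodMk ?_
            exact ContinuousAt.comp (g := f) (f := Prod.fst) (hfc z hz)
              continuous_fst.continuousAt
          have c2 : ∀ᶠ q in 𝓝 (z, f z), d q.2 (f q.1) < ε := by
            refine c1.eventually_lt_const ?_
            change d (f z) (f z) < ε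
            rw [hd0]
            exact hε
          rw [hind.nhds_eq_comap] at c2
          obtain ⟨N, hN, hN'⟩ := mem_comap.1 c2
          refine mem_of_superset hN ?_
          rintro ⟨y, e⟩ hq x rfl
          exact hN' (show ((y, x) : (Fin m → ℂ) × Fib F t) ∈ _ from hq))
      obtain ⟨u, hu1, hu2⟩ := h m i j δ hne hij ⟨fun z => (f z).1,
        hf.mono fun z hz => holV_fib_iff.1 hz, hδ1⟩
      let G : (Fin m → ℂ) → Fib F t := fun z =>
        if h : F.p (u z) = t then ⟨u z, h⟩ else f 0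
      obtain ⟨U, hUo, hLU, hU⟩ := mem_nhdsSet_iff_exists.1 hu1
      have hpt : ∀ z ∈ U, F.p (u z) = t := fun z hz => (hU hz).1.self_of_nhds
      have hG : ∀ z ∈ U, (G z).1 = u z := fun z hz => by
        simp only [G, dif_pos (hpt z hz)]
      refine ⟨G, mem_nhdsSet_iff_exists.2 ⟨U, hUo, hLU, fun z hz => ?_⟩, fun z hz => ?_⟩
      · change All.HolV G z
        rw [holV_fib_iff]
        refine FH.congr (hU hz) ?_
        filter_upwards [hUo.mem_nhds hz] with y hy using hG y hy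
      · exact hδ2 z hz (u z) (hu2 z hz) (G z) (hG z (hLU (hij hz)))

/-- The set of parameters with Oka fibre: there are countably many open sets `A n`, `A' n` such that
the fibre over `t` is Oka iff `t ∈ A n` implies `t ∈ A' n` for all `n`. -/
theorem exists_seq_open [SecondCountableTopology E] (F : Family T E)
    (h2 : ∀ t, T2Space (Fib F t)) (hc : ∀ t, CompactSpace (Fib F t)) :
    ∃ A A' : ℕ → Set T, (∀ n, IsOpen (A n)) ∧ (∀ n, IsOpen (A' n)) ∧
      ∀ t, All.IsOka (Fib F t) ↔ ∀ n, t ∈ A n → t ∈ A' n := by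
  choose 𝒦 h𝒦 hcof using fun m : ℕ => exists_countable_good (Fin m → ℂ)
  have hb : ∀ (Y : Type) [TopologicalSpace Y] [SecondCountableTopology Y], ∃ B : ℕ → Set Y,
      IsTopologicalBasis (range B) := by
    intro Y _ _
    have h1 : (insert ∅ (countableBasis Y)).Countable := (countable_countableBasis Y).insert _
    obtain ⟨B, hB⟩ := h1.exists_eq_range ⟨∅, mem_insert _ _⟩
    refine ⟨B, hB ▸ ?_⟩
    exact (isBasis_countableBasis Y).insert_empty
  obtain ⟨BE, hE⟩ := hb E
  choose BV hV using fun m : ℕ => hb (Fin m → ℂ)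
  let ι : Type := {q : (Σ _ : ℕ, ℕ × ℕ × Finset (ℕ × ℕ)) //
    (𝒦 q.1 q.2.1).Nonempty ∧ 𝒦 q.1 q.2.1 ⊆ 𝒦 q.1 q.2.2.1}
  have hι : Countable ι := inferInstance
  have hιn : Nonempty ι := by
    obtain ⟨n, hn, -⟩ := hcof 0 univ univ ⟨isCompact_univ, convex_univ⟩ isOpen_univ Subset.rfl
    exact ⟨⟨⟨0, n, n, ∅⟩, ⟨0, hn (mem_univ _)⟩, Subset.rfl⟩⟩
  obtain ⟨e, he⟩ := exists_surjective_nat ι
  refine ⟨fun n => SB F (𝒦 (e n).1.1 (e n).1.2.1) (𝒦 (e n).1.1 (e n).1.2.1)
      (OO (BV (e n).1.1) BE (e n).1.2.2.2),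
    fun n => SB F (𝒦 (e n).1.1 (e n).1.2.1) (𝒦 (e n).1.1 (e n).1.2.2.1)
      (OO (BV (e n).1.1) BE (e n).1.2.2.2), fun n => ?_, fun n => ?_, fun t => ?_⟩
  · exact isOpen_SB F (h𝒦 _ _) (h𝒦 _ _).1.isClosed Subset.rfl
      (isOpen_OO (fun k => hE.isOpen (mem_range_self k)) _)
  · exact isOpen_SB F (h𝒦 _ _) (h𝒦 _ _).1.isClosed (e n).2.2
      (isOpen_OO (fun k => hE.isOpen (mem_range_self k)) _)
  · have := h2 t
    have := hc t
    rw [isOka_fib_iff F t (fun m n => h𝒦 m n) (fun m => hcof m) hV hE]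
    constructor
    · intro h n hn
      exact h _ _ _ _ (e n).2.1 (e n).2.2 hn
    · intro h m i j δ hne hij ht
      obtain ⟨n, hn⟩ := he ⟨⟨m, i, j, δ⟩, hne, hij⟩
      have := h n
      beta_reduce at this
      rw [hn] at this
      exact this ht

/-- The Oka fibres of a family over a metrizable space form a `G_δ`. -/
theorem isGδ_oka [SecondCountableTopology E] [PseudoMetrizableSpace T] (F : Family T E)
    (h2 : ∀ t, T2Space (Fib F t)) (hc : ∀ t, CompactSpace (Fib F t)) :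
    IsGδ {t | All.IsOka (Fib F t)} := by
  obtain ⟨A, A', hA, hA', h⟩ := exists_seq_open F h2 hc
  have : {t | All.IsOka (Fib F t)} = ⋂ n, ((A n)ᶜ ∪ A' n) := by
    ext t
    simp only [mem_ofPred_eq, h, mem_iInter, mem_union, mem_compl_iff]
    exact forall_congr' fun n => by tauto
  rw [this]
  let _ := TopologicalSpace.pseudoMetrizableSpacePseudoMetric T
  exact IsGδ.iInter fun n => (hA n).isClosed_compl.isGδ.union (hA' n).isGδ

/-- a topological lemma -/
theorem residual_of_dense_imp {A A' : ℕ → Set T} (hA : ∀ n, IsOpen (A n))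
    (hA' : ∀ n, IsOpen (A' n)) (hd : Dense {t | ∀ n, t ∈ A n → t ∈ A' n}) :
    {t | ∀ n, t ∈ A n → t ∈ A' n} ∈ residual T := by
  have h1 : ∀ n, interior (A n)ᶜ ∪ A' n ∈ residual T := by
    intro n
    refine residual_of_dense_open (isOpen_interior.union (hA' n)) ?_
    rw [dense_iff_inter_open]
    intro W hW hne
    rcases eq_empty_or_nonempty (W ∩ A n) with he | hne'
    · obtain ⟨w, hw⟩ := hne
      refine ⟨w, hw, Or.inl ?_⟩
      refine mem_interior.2 ⟨W, fun y hy hyA => ?_, hW, hw⟩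
      exact notMem_empty y (he ▸ ⟨hy, hyA⟩)
    · obtain ⟨t, htW, ht⟩ := hd.inter_open_nonempty _ (hW.inter (hA n)) hne'
      exact ⟨t, htW.1, Or.inr (ht n htW.2)⟩
  have h3 : (⋂ n, (interior (A n)ᶜ ∪ A' n)) ∈ residual T := countable_iInter_mem.2 h1
  refine mem_of_superset h3 fun t ht => fun n hn => ?_
  rcases mem_iInter.1 ht n with h4 | h4
  · exact absurd hn (interior_subset h4)
  · exact h4

/-- If the Oka fibres are dense, they are the generic ones. -/
theorem residual_oka [SecondCountableTopology E] (F : Family T E)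
    (h2 : ∀ t, T2Space (Fib F t)) (hc : ∀ t, CompactSpace (Fib F t))
    (hd : Dense {t | All.IsOka (Fib F t)}) : {t | All.IsOka (Fib F t)} ∈ residual T := by
  obtain ⟨A, A', hA, hA', h⟩ := exists_seq_open F h2 hc
  have e : {t | All.IsOka (Fib F t)} = {t | ∀ n, t ∈ A n → t ∈ A' n} := by
    ext t; exact h t
  rw [e] at hd ⊢
  exact residual_of_dense_imp hA hA' hd

/-- In the closure of a set of parameters with Oka fibres the generic fibre is Oka. -/
theorem residual_closure [SecondCountableTopology E] (F : Family T E)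
    (h2 : ∀ t, T2Space (Fib F t)) (hc : ∀ t, CompactSpace (Fib F t)) {D : Set T}
    (hD : ∀ t ∈ D, All.IsOka (Fib F t)) :
    {t : closure D | All.IsOka (Fib F t.1)} ∈ residual (closure D) := by
  obtain ⟨A, A', hA, hA', h⟩ := exists_seq_open F h2 hc
  have e : {t : closure D | All.IsOka (Fib F t.1)} =
      {t : closure D | ∀ n, t ∈ (Subtype.val ⁻¹' A n : Set (closure D)) →
        t ∈ (Subtype.val ⁻¹' A' n : Set (closure D))} := by
    ext t; exact h t.1
  have hd : Dense {t : closure D | All.IsOka (Fib F t.1)} := by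
    rw [Subtype.dense_iff]
    refine closure_mono fun t ht => ?_
    exact ⟨⟨t, subset_closure ht⟩, hD t ht, rfl⟩
  rw [e] at hd ⊢
  exact residual_of_dense_imp (fun n => (hA n).preimage continuous_subtype_val)
    (fun n => (hA' n).preimage continuous_subtype_val) hd

end main

end Vale.Agent.P290.H805
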