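import Vale.Agent.P290.H805.Merge

/-! The deformation lemma, for maps with coordinates. -/

open Set Filter Metric
open scoped Topology NNReal ContDiff

namespace Vale.Agent.P290.H805

open Vale.Agent.P290.All Vale.Agent.P290 Vale.Agent.P290.K Vale.Agent.P290.H580

variable {T E : Type} [TopologicalSpace T] [TopologicalSpace E] {F : Family T E}
variable {V : Type} [NormedAddCommGroup V] [NormedSpace ℂ V] {t₀ : T}

namespace Tube

theorem exists_map [FiniteDimensional ℂ V] (D : Tube F V t₀) {K : Set V} (hK : Good K)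
    (hKN : K ⊆ ⋃ j, interior (D.N j)) {ρ : ℝ} (hρ : 0 < ρ) {ε : ℝ} (hε : 0 < ε) :
    ∃ r₀ > 0, ∀ r < r₀, ∀ t, D.Adm ρ r t → ∃ u : V × C2 → E,
      (∀ᶠ y in 𝓝ˢ (K ×ˢ {(0 : C2)}), FH F t u y) ∧ ∀ z ∈ K, D.Cl ε r (z, 0) (u (z, 0)) := by
  classical
  have gK : Good (K ×ˢ {(0 : C2)}) :=
    ⟨hK.1.prod isCompact_singleton, hK.2.prod (convex_singleton _)⟩
  have : Nonempty (ℝ × E) := ⟨(0, D.u₀ 0)⟩
  have hcovK : K ×ˢ {(0 : C2)} ⊆ {y : V × C2 | y.1 ∈ ⋃ j, interior (D.N j)} :=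
    fun y hy => hKN hy.1
  have hopen : IsOpen {y : V × C2 | y.1 ∈ ⋃ j, interior (D.N j)} :=
    (isOpen_iUnion fun j => isOpen_interior).preimage continuous_fst
  obtain ⟨η₁, hη₁, hη₁K⟩ := gK.1.exists_cthickening_subset_open hopen hcovK
  obtain ⟨η₀, hη₀, key⟩ := perturb (C := ℝ) (Pt := ℝ × T) (Φ := ℝ × E) gK
    (fun p _ => p.1) (fun _ => 0) (fun _ p => D.Adm ρ p.1 p.2) (fun _ _ _ _ h => h)
    (fun p u y => (∀ᶠ y' in 𝓝 y, (u y').1 = p.1) ∧ FH F p.2 (fun y => (u y).2) y)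
    (fun ε y φ => D.Cl ε φ.1 y φ.2)
    (by
      rintro ⟨z₀, w₀⟩ ⟨hz₀, hw₀⟩
      obtain ⟨i, hi⟩ := mem_iUnion.1 (hKN hz₀)
      rw [mem_singleton_iff] at hw₀
      simp only at hz₀ hw₀ hi
      subst hw₀
      set U : Set (V × C2) := interior (D.N i) ×ˢ ball (0 : C2) 2 with hU
      have hUo : IsOpen U := isOpen_interior.prod isOpen_ball
      refine ⟨U, hUo.mem_nhds ⟨hi, mem_ball_self two_pos⟩, fun S hS hSU ε hε => ?_⟩
      obtain ⟨r₀, hr₀, hest⟩ := D.exists_est hρ hε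
      refine ⟨univ ×ˢ Iio r₀, fun y _ => prod_mem_nhds univ_mem (Iio_mem_nhds hr₀), ?_⟩
      rintro ⟨r, t⟩ hA hS'
      rcases S.eq_empty_or_nonempty with rfl | ⟨y₁, hy₁⟩
      · refine ⟨fun _ => (0, D.u₀ 0), by simp only [nhdsSet_empty, eventually_bot], ?_⟩
        intro z hz
        exact absurd hz (notMem_empty z)
      have hr : r < r₀ := (hS' y₁ hy₁).2
      simp only at hA
      have hin : ∀ y ∈ U, y.1 ∈ D.N i ∧ ‖y.2‖ ≤ 2 := fun y hy =>
        ⟨interior_subset hy.1, (mem_ball_zero_iff.1 hy.2).le⟩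
      refine ⟨fun y => (r, D.P i r t y.1 y.2), ?_, fun y hy => ?_⟩
      · filter_upwards [hUo.mem_nhdsSet.2 hSU] with y hy
        refine ⟨Eventually.of_forall fun _ => rfl, ?_⟩
        obtain ⟨h1, h2⟩ := hin y hy
        have hO := D.sub i h1
        refine FH.mk_symm (v := fun y : V × C2 => D.c i y.1 + (r : ℂ) • D.η i y.1 y.2) ?_
          (hest r hr t hA i y.1 h1 y.2 h2).1
        have e1 : DifferentiableAt ℂ (fun y : V × C2 => D.c i y.1) y :=
          DifferentiableAt.comp (g := D.c i) (f := fun y : V × C2 => y.1) y (D.c_diff hO)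
            (by fun_prop)
        have e2 : DifferentiableAt ℂ (fun y : V × C2 => D.η i y.1) y :=
          DifferentiableAt.comp (g := D.η i) (f := fun y : V × C2 => y.1) y (D.η_diff i _ hO)
            (by fun_prop)
        have e3 : DifferentiableAt ℂ (fun y : V × C2 => D.η i y.1 y.2) y :=
          e2.clm_apply (by fun_prop)
        exact e1.add (DifferentiableAt.const_smul e3 (r : ℂ))
      · obtain ⟨h1, h2⟩ := hin y (hSU hy)
        exact (hest r hr t hA i y.1 h1 y.2 h2).2)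
    (by
      refine ⟨η₁, hη₁, fun A B A' B' gA gB gA' gB' hconv hAA hBB hsub ε hε => ?_⟩
      obtain ⟨δ, hδ, hm⟩ := D.merge (Q := cthickening η₁ (K ×ˢ {(0 : C2)})) (by
        intro y hy
        obtain ⟨j, hj⟩ := mem_iUnion.1 (hη₁K hy)
        exact ⟨j, interior_subset hj⟩) A B A' B' gA gB gA' gB' hconv hAA hBB hsub ε hε
      refine ⟨δ, hδ, ?_⟩
      rintro ⟨r, t⟩ u u' hA hu hu' hcu hcu'
      simp only at hA hu hu' hcu hcu'
      have f1 : ∀ y ∈ A', (u y).1 = r := fun y hy => (hu.self_of_nhdsSet y hy).1.self_of_nhds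
      have f2 : ∀ y ∈ B', (u' y).1 = r := fun y hy => (hu'.self_of_nhdsSet y hy).1.self_of_nhds
      obtain ⟨v, hv1, hv2⟩ := hm r t (fun y => (u y).2) (fun y => (u' y).2) hA.1
        (hu.mono fun y h => h.2) (hu'.mono fun y h => h.2)
        (fun y hy => by have := hcu y hy; rwa [f1 y hy] at this)
        (fun y hy => by have := hcu' y hy; rwa [f2 y hy] at this)
      exact ⟨fun y => (r, v y), hv1.mono fun y h => ⟨Eventually.of_forall fun _ => rfl, h⟩, hv2⟩)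
  obtain ⟨𝒪, h𝒪, hsol⟩ := key 0 (η₀ / 2) le_rfl (by positivity) (by linarith) ε hε
  obtain ⟨δ, hδ, hδO⟩ := exists_uniform gK.1.cthickening (0 : ℝ) 𝒪 h𝒪
  refine ⟨δ, hδ, fun r hr t hA => ?_⟩
  obtain ⟨u, hu1, hu2⟩ := hsol (r, t) hA (fun y hy => hδO y hy r (by
    rw [dist_zero_right, Real.norm_of_nonneg hA.1.le]; exact hr.le))
  have hK0 : cthickening 0 (K ×ˢ {(0 : C2)}) = K ×ˢ {(0 : C2)} := by
    rw [cthickening_zero, gK.1.isClosed.closure_eq]
  rw [hK0] at hu1 hu2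
  refine ⟨fun y => (u y).2, hu1.mono fun y h => h.2, fun z hz => ?_⟩
  have hz0 : ((z, 0) : V × C2) ∈ K ×ˢ {(0 : C2)} := ⟨hz, rfl⟩
  have h1 := hu2 (z, 0) hz0
  have h2 : (u (z, 0)).1 = r := (hu1.self_of_nhdsSet _ hz0).1.self_of_nhds
  rwa [h2] at h1

/-- a point close to the reference point in the rescaled coordinate -/
theorem eq_symm (D : Tube F V t₀) {j : D.J} {r : ℝ} (hr : 0 < r) {z : V} (hz : z ∈ D.O j) {y : E}
    (hy : y ∈ (F.triv (D.x j)).source) :
    y = (F.triv (D.x j)).symm (F.p y, D.c j z + (r : ℂ) • D.η j z (D.k j r z y)) := by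
  have h1 : (r : ℂ) • D.η j z (D.k j r z y) = (F.triv (D.x j) y).2 - D.c j z := by
    rw [k, map_smul, D.ηζ j z hz, smul_smul]
    have e4 : (r : ℂ) * ((r⁻¹ : ℝ) : ℂ) = 1 := by
      rw [← Complex.ofReal_mul, mul_inv_cancel₀ hr.ne', Complex.ofReal_one]
    rw [e4, one_smul]
  rw [h1, add_sub_cancel, ← F.mk_eq _ hy, (F.triv (D.x j)).left_inv hy]

/-- Deformation lemma: a holomorphic map from a neighbourhood of a compact convex set to a fibre
can be deformed to the nearby fibres. -/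
theorem deform [FiniteDimensional ℂ V] (D : Tube F V t₀) {K : Set V} (hK : Good K)
    (hKN : K ⊆ ⋃ j, interior (D.N j)) (𝒪 : Set (V × E)) (h𝒪 : ∀ z ∈ K, 𝒪 ∈ 𝓝 (z, D.u₀ z)) :
    ∀ᶠ t in 𝓝 t₀, ∃ u : V → E, (∀ᶠ z in 𝓝ˢ K, FH F t u z) ∧ ∀ z ∈ K, (z, u z) ∈ 𝒪 := by
  have := D.finite
  obtain ⟨ρ, hρ, hadm⟩ := D.exists_adm
  obtain ⟨L, hL, hLb⟩ := D.exists_bound
  obtain ⟨r₀, hr₀, hmap⟩ := D.exists_map hK hKN hρ one_pos
  -- points with small coordinates belong to `𝒪`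
  have h1 : ∀ j, ∃ σ > 0, ∀ᶠ t in 𝓝 t₀, ∀ κ : C2, ‖κ‖ < σ → ∀ z ∈ K ∩ D.N j,
      (z, (F.triv (D.x j)).symm (t, D.c j z + κ)) ∈ 𝒪 := by
    intro j
    have hc : IsCompact (K ∩ D.N j) := hK.1.inter (D.compact j)
    have h2 : ∀ᶠ q : T × C2 in 𝓝 (t₀, (0 : C2)), ∀ z ∈ K ∩ D.N j,
        (z, (F.triv (D.x j)).symm (q.1, D.c j z + q.2)) ∈ 𝒪 := by
      refine hc.eventually_forall_of_forall_eventually fun z hz => ?_
      have hO := D.sub j hz.2
      have c1 : ContinuousAt (fun x : (T × C2) × V => ((x.1.1, D.c j x.2 + x.1.2) : T × C2))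
          ((t₀, 0), z) := by
        refine (continuous_fst.comp continuous_fst).continuousAt.prodMk (ContinuousAt.add ?_
          (continuous_snd.comp continuous_fst).continuousAt)
        exact ContinuousAt.comp (g := D.c j) (f := fun x : (T × C2) × V => x.2)
          (x := ((t₀, 0), z)) (D.c_diff hO).continuousAt continuous_snd.continuousAt
      have c2 : ContinuousAt (F.triv (D.x j)).symm (t₀, D.c j z + 0) := by
        rw [add_zero]; exact (F.triv (D.x j)).continuousAt_symm (D.c_mem hO)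
      have c3 : ContinuousAt (fun x : (T × C2) × V =>
          (F.triv (D.x j)).symm (x.1.1, D.c j x.2 + x.1.2)) ((t₀, 0), z) :=
        ContinuousAt.comp (g := (F.triv (D.x j)).symm)
          (f := fun x : (T × C2) × V => ((x.1.1, D.c j x.2 + x.1.2) : T × C2))
          (x := ((t₀, 0), z)) c2 c1
      have c4 : ContinuousAt (fun x : (T × C2) × V =>
          ((x.2, (F.triv (D.x j)).symm (x.1.1, D.c j x.2 + x.1.2)) : V × E)) ((t₀, 0), z) :=
        continuous_snd.continuousAt.prodMk c3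
      refine c4.eventually ?_
      simp only [add_zero, D.symm_c hO]
      exact h𝒪 z hz.1
    obtain ⟨A, hA, B, hB, hAB⟩ := mem_nhds_prod_iff.1 h2
    obtain ⟨σ, hσ, hσB⟩ := Metric.mem_nhds_iff.1 hB
    refine ⟨σ, hσ, ?_⟩
    filter_upwards [hA] with t ht κ hκ
    exact hAB (⟨ht, hσB (by simpa using hκ)⟩ : (t, κ) ∈ A ×ˢ B)
  choose σ hσ h2 using h1
  obtain ⟨σ₀, hσ₀, hle⟩ : ∃ σ₀ > 0, ∀ q, σ₀ ≤ σ q := by
    rcases isEmpty_or_nonempty D.J with h | h
    · exact ⟨1, one_pos, fun j => isEmptyElim j⟩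
    · obtain ⟨j, hj⟩ := Finite.exists_min σ
      exact ⟨σ j, hσ j, hj⟩
  set r := min (r₀ / 2) (σ₀ / (2 * L)) with hr
  have hr0 : 0 < r := by positivity
  have hr1 : r < r₀ := (min_le_left _ _).trans_lt (by linarith)
  have hr2 : r * L < σ₀ := by
    have h3 : r ≤ σ₀ / (2 * L) := min_le_right _ _
    rw [le_div_iff₀ (by positivity)] at h3
    nlinarith
  filter_upwards [hadm r hr0, eventually_all.2 h2] with t hA ht
  obtain ⟨u, hu1, hu2⟩ := hmap r hr1 t hA
  have hu3 : ∀ᶠ z in 𝓝ˢ K, FH F t (fun z => u (z, 0)) z := by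
    rw [eventually_nhdsSet_iff_forall]
    intro z hz
    have hc : Continuous fun z : V => ((z, 0) : V × C2) := by fun_prop
    have h3 : ∀ᶠ y in 𝓝 ((z, 0) : V × C2), FH F t u y :=
      (eventually_nhdsSet_iff_forall.1 hu1) _ ⟨hz, rfl⟩
    filter_upwards [hc.continuousAt.eventually h3] with x hx
    exact FH.comp (u := u) (q := fun z : V => ((z, 0) : V × C2)) hx (by fun_prop)
  refine ⟨fun z => u (z, 0), hu3, fun z hz => ?_⟩
  obtain ⟨j, hj⟩ := mem_iUnion.1 (hKN hz)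
  have hj' : z ∈ D.N j := interior_subset hj
  obtain ⟨h4, h5⟩ := hu2 z hz j hj'
  simp only [sub_zero] at h5
  have hp : F.p (u (z, 0)) = t := (hu3.self_of_nhdsSet z hz).1.self_of_nhds
  have h6 := D.eq_symm hr0 (D.sub j hj') h4
  rw [hp] at h6
  simp only
  rw [h6]
  refine ht j _ ?_ z ⟨hz, hj'⟩
  rw [norm_smul, Complex.norm_real, Real.norm_of_nonneg hr0.le]
  calc r * ‖D.η j z (D.k j r z (u (z, 0)))‖ ≤ r * (L * 1) := by
        refine mul_le_mul_of_nonneg_left ?_ hr0.le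
        refine (ContinuousLinearMap.le_opNorm _ _).trans ?_
        exact mul_le_mul (hLb j z hj').1 h5.le (norm_nonneg _) hL.le
    _ < σ j := by
        have := hle j
        linarith

end Tube

end Vale.Agent.P290.H805
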