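import Vale.Agent.P290.K.AllDefs

/-! Families of complex surfaces and their fibres. -/

open scoped Manifold ContDiff Topology
open Set Filter Vale.Agent.P290.All

namespace Vale.Agent.P290.H805

/-- A (continuous) family of complex surfaces with total space `E` over the space `T`: a map
`p : E → T` which is locally on `E` isomorphic to the projection of an open subset of `T × ℂ²` to
`T`, the transition maps between these local trivialisations being holomorphic on the fibres. -/
structure Family (T E : Type) [TopologicalSpace T] [TopologicalSpace E] where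
  p : E → T
  triv : E → OpenPartialHomeomorph E (T × C2)
  mem : ∀ x, x ∈ (triv x).source
  fst : ∀ x, ∀ y ∈ (triv x).source, (triv x y).1 = p y
  hol : ∀ x x' t v, (t, v) ∈ (triv x).target → (triv x).symm (t, v) ∈ (triv x').source →
    ContDiffAt ℂ ω (fun w => (triv x' ((triv x).symm (t, w))).2) v

section
variable {T E : Type} [TopologicalSpace T] [TopologicalSpace E]

/-- the fibre `p ⁻¹ (t)` of a family -/
@[ext] structure Fib (F : Family T E) (t : T) where
  val : E
  prop : F.p val = t

instance (F : Family T E) (t : T) : TopologicalSpace (Fib F t) :=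
  TopologicalSpace.induced Fib.val inferInstance

variable {F : Family T E} {t : T}

theorem isInducing_val : Topology.IsInducing (Fib.val : Fib F t → E) := ⟨rfl⟩

theorem continuous_val : Continuous (Fib.val : Fib F t → E) := isInducing_val.continuous

theorem Family.p_symm (F : Family T E) (x : E) {t : T} {v : C2} (h : (t, v) ∈ (F.triv x).target) :
    F.p ((F.triv x).symm (t, v)) = t := by
  rw [← F.fst x _ ((F.triv x).map_target h), (F.triv x).right_inv h]

theorem Family.mk_eq (F : Family T E) (x : E) {y : E} (h : y ∈ (F.triv x).source) :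
    F.triv x y = (F.p y, (F.triv x y).2) := by
  rw [← F.fst x y h]

open Classical in
/-- the point of the fibre with the coordinate `v` -/
noncomputable def fibInv (F : Family T E) (t : T) (x : Fib F t) (v : C2) : Fib F t :=
  if h : (t, v) ∈ (F.triv x.val).target then ⟨(F.triv x.val).symm (t, v), F.p_symm _ h⟩ else x

theorem fibInv_val (F : Family T E) (t : T) (x : Fib F t) {v : C2}
    (h : (t, v) ∈ (F.triv x.val).target) :
    (fibInv F t x v).val = (F.triv x.val).symm (t, v) := by
  rw [fibInv, dif_pos h]

/-- the chart of the fibre `p ⁻¹ (t)` given by the local trivialisation at `x` -/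
noncomputable def fibChart (F : Family T E) (t : T) (x : Fib F t) :
    OpenPartialHomeomorph (Fib F t) C2 where
  toFun y := (F.triv x.val y.val).2
  invFun := fibInv F t x
  source := {y | y.val ∈ (F.triv x.val).source}
  target := {v | (t, v) ∈ (F.triv x.val).target}
  map_source' := by
    intro y hy
    have h1 := (F.triv x.val).map_source hy
    rw [F.mk_eq x.val hy, y.prop] at h1
    exact h1
  map_target' := by
    intro v hv
    have h := (F.triv x.val).map_target hv
    rw [← fibInv_val F t x hv] at h
    exact h
  left_inv' := by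
    intro y hy
    have hy' : y.val ∈ (F.triv x.val).source := hy
    have h1 : F.triv x.val y.val = (t, (F.triv x.val y.val).2) := by
      rw [F.mk_eq x.val hy', y.prop]
    have h2 : (t, (F.triv x.val y.val).2) ∈ (F.triv x.val).target := by
      rw [← h1]; exact (F.triv x.val).map_source hy'
    apply Fib.ext
    rw [fibInv_val F t x h2, ← h1, (F.triv x.val).left_inv hy']
  right_inv' := by
    intro v hv
    rw [fibInv_val F t x hv, (F.triv x.val).right_inv hv]
  open_source := (F.triv x.val).open_source.preimage continuous_val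
  open_target := (F.triv x.val).open_target.preimage (Continuous.prodMk_right t)
  continuousOn_toFun := by
    have h1 : ContinuousOn (fun y : Fib F t => F.triv x.val y.val)
        {y | y.val ∈ (F.triv x.val).source} :=
      (F.triv x.val).continuousOn.comp continuous_val.continuousOn fun y hy => hy
    exact continuous_snd.comp_continuousOn h1
  continuousOn_invFun := by
    refine isInducing_val.continuousOn_iff.2 ?_
    have h1 : ContinuousOn (fun v : C2 => (F.triv x.val).symm (t, v))
        {v | (t, v) ∈ (F.triv x.val).target} :=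
      (F.triv x.val).continuousOn_symm.comp (Continuous.prodMk_right t).continuousOn
        fun v hv => hv
    exact h1.congr fun v hv => fibInv_val F t x hv

theorem fibChart_apply (F : Family T E) (t : T) (x y : Fib F t) :
    fibChart F t x y = (F.triv x.val y.val).2 := rfl

theorem fibChart_source (F : Family T E) (t : T) (x : Fib F t) :
    (fibChart F t x).source = {y | y.1 ∈ (F.triv x.1).source} := rfl

theorem fibChart_target (F : Family T E) (t : T) (x : Fib F t) :
    (fibChart F t x).target = {v | (t, v) ∈ (F.triv x.1).target} := rfl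

theorem fibChart_symm_val (F : Family T E) (t : T) (x : Fib F t) {v : C2}
    (h : (t, v) ∈ (F.triv x.val).target) :
    ((fibChart F t x).symm v).val = (F.triv x.val).symm (t, v) :=
  fibInv_val F t x h

noncomputable instance (F : Family T E) (t : T) : ChartedSpace C2 (Fib F t) where
  atlas := range (fibChart F t)
  chartAt := fibChart F t
  mem_chart_source x := F.mem x.1
  chart_mem_atlas x := mem_range_self x

theorem chartAt_fib (F : Family T E) (t : T) (x : Fib F t) : chartAt C2 x = fibChart F t x := rfl

instance (F : Family T E) (t : T) : IsManifold 𝓘(ℂ, C2) ω (Fib F t) := by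
  refine isManifold_of_contDiffOn _ _ _ ?_
  rintro _ _ ⟨x, rfl⟩ ⟨x', rfl⟩
  intro v hv
  simp only [mfld_simps] at hv ⊢
  obtain ⟨h1, h2⟩ := hv
  have h1' : (t, v) ∈ (F.triv x.1).target := h1
  have h2' : ((fibChart F t x).symm v).1 ∈ (F.triv x'.1).source := h2
  rw [fibChart_symm_val F t x h1'] at h2'
  have h3 := F.hol x.1 x'.1 t v h1' h2'
  refine ContDiffAt.contDiffWithinAt ?_
  refine h3.congr_of_eventuallyEq ?_
  have h4 : (fibChart F t x).target ∈ 𝓝 v := (fibChart F t x).open_target.mem_nhds h1
  filter_upwards [h4] with w hw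
  simp only [Function.comp, fibChart_apply, fibChart_symm_val F t x hw]

/-- `u` is, near `z`, a holomorphic map with values in the fibre over `t` -/
def FH (F : Family T E) {V : Type} [NormedAddCommGroup V] [NormedSpace ℂ V] (t : T) (u : V → E)
    (z : V) : Prop :=
  (∀ᶠ y in 𝓝 z, F.p (u y) = t) ∧ ContinuousAt u z ∧
    DifferentiableAt ℂ (fun y => (F.triv (u z) (u y)).2) z

variable {V W : Type} [NormedAddCommGroup V] [NormedSpace ℂ V] [NormedAddCommGroup W]
  [NormedSpace ℂ W]

/-- a fibrewise holomorphic map is holomorphic in every trivialisation -/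
theorem FH.diff {u : V → E} {z : V} (h : FH F t u z) {x : E} (hx : u z ∈ (F.triv x).source) :
    DifferentiableAt ℂ (fun y => (F.triv x (u y)).2) z := by
  obtain ⟨h1, h2, h3⟩ := h
  have hz : u z ∈ (F.triv (u z)).source := F.mem (u z)
  have hzt : F.p (u z) = t := h1.self_of_nhds
  have e1 : F.triv (u z) (u z) = (t, (F.triv (u z) (u z)).2) := by
    rw [← hzt]; exact F.mk_eq _ hz
  have e2 : (t, (F.triv (u z) (u z)).2) ∈ (F.triv (u z)).target := by
    rw [← e1]; exact (F.triv (u z)).map_source hz
  have e3 : (F.triv (u z)).symm (t, (F.triv (u z) (u z)).2) = u z := by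
    rw [← e1, (F.triv (u z)).left_inv hz]
  have h4 := F.hol (u z) x t (F.triv (u z) (u z)).2 e2 (by rw [e3]; exact hx)
  have h5 : DifferentiableAt ℂ (fun w => (F.triv x ((F.triv (u z)).symm (t, w))).2)
      (F.triv (u z) (u z)).2 := h4.differentiableAt (by simp)
  have h6 := DifferentiableAt.comp (f := fun y => (F.triv (u z) (u y)).2)
    (g := fun w => (F.triv x ((F.triv (u z)).symm (t, w))).2) z h5 h3
  refine h6.congr_of_eventuallyEq ?_
  have h7 : ∀ᶠ y in 𝓝 z, u y ∈ (F.triv (u z)).source :=
    h2.eventually ((F.triv (u z)).open_source.mem_nhds hz)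
  filter_upwards [h1, h7] with y hy1 hy2
  have e4 : F.triv (u z) (u y) = (t, (F.triv (u z) (u y)).2) := by
    rw [← hy1]; exact F.mk_eq _ hy2
  simp only [Function.comp]
  rw [← e4, (F.triv (u z)).left_inv hy2]

theorem FH.eventually_source {u : V → E} {z : V} (h : FH F t u z) {x : E}
    (hx : u z ∈ (F.triv x).source) : ∀ᶠ y in 𝓝 z, u y ∈ (F.triv x).source :=
  h.2.1.eventually ((F.triv x).open_source.mem_nhds hx)

/-- recognising fibrewise holomorphic maps in some trivialisation -/
theorem FH.of_triv {u : V → E} {z : V} {x : E} (h1 : ∀ᶠ y in 𝓝 z, F.p (u y) = t)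
    (h2 : ContinuousAt u z) (hx : u z ∈ (F.triv x).source)
    (h3 : DifferentiableAt ℂ (fun y => (F.triv x (u y)).2) z) : FH F t u z := by
  refine ⟨h1, h2, ?_⟩
  have hzt : F.p (u z) = t := h1.self_of_nhds
  have hz : u z ∈ (F.triv (u z)).source := F.mem (u z)
  have e1 : F.triv x (u z) = (t, (F.triv x (u z)).2) := by
    rw [← hzt]; exact F.mk_eq _ hx
  have e2 : (t, (F.triv x (u z)).2) ∈ (F.triv x).target := by
    rw [← e1]; exact (F.triv x).map_source hx
  have e3 : (F.triv x).symm (t, (F.triv x (u z)).2) = u z := by
    rw [← e1, (F.triv x).left_inv hx]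
  have h4 := F.hol x (u z) t (F.triv x (u z)).2 e2 (by rw [e3]; exact hz)
  have h5 : DifferentiableAt ℂ (fun w => (F.triv (u z) ((F.triv x).symm (t, w))).2)
      (F.triv x (u z)).2 := h4.differentiableAt (by simp)
  have h6 := DifferentiableAt.comp (f := fun y => (F.triv x (u y)).2)
    (g := fun w => (F.triv (u z) ((F.triv x).symm (t, w))).2) z h5 h3
  refine h6.congr_of_eventuallyEq ?_
  have h7 : ∀ᶠ y in 𝓝 z, u y ∈ (F.triv x).source :=
    h2.eventually ((F.triv x).open_source.mem_nhds hx)
  filter_upwards [h1, h7] with y hy1 hy2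
  have e4 : F.triv x (u y) = (t, (F.triv x (u y)).2) := by
    rw [← hy1]; exact F.mk_eq _ hy2
  simp only [Function.comp]
  rw [← e4, (F.triv x).left_inv hy2]

/-- maps given in a trivialisation -/
theorem FH.mk_symm {x : E} {v : V → C2} {z : V} (hv : DifferentiableAt ℂ v z)
    (h : (t, v z) ∈ (F.triv x).target) : FH F t (fun y => (F.triv x).symm (t, v y)) z := by
  have hc : ContinuousAt (fun y => ((t, v y) : T × C2)) z :=
    continuousAt_const.prodMk hv.continuousAt
  have h1 : ∀ᶠ y in 𝓝 z, (t, v y) ∈ (F.triv x).target :=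
    hc.eventually ((F.triv x).open_target.mem_nhds h)
  refine FH.of_triv (x := x) ?_ ?_ ((F.triv x).map_target h) ?_
  · filter_upwards [h1] with y hy using F.p_symm x hy
  · exact ContinuousAt.comp (g := (F.triv x).symm) (f := fun y => ((t, v y) : T × C2))
      ((F.triv x).continuousAt_symm h) hc
  · refine hv.congr_of_eventuallyEq ?_
    filter_upwards [h1] with y hy
    rw [(F.triv x).right_inv hy]

theorem FH.comp {u : V → E} {q : W → V} {w : W} (h : FH F t u (q w)) (hq : DifferentiableAt ℂ q w) :
    FH F t (fun y => u (q y)) w := by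
  obtain ⟨h1, h2, h3⟩ := h
  exact ⟨hq.continuousAt.eventually h1,
    ContinuousAt.comp (g := u) (f := q) h2 hq.continuousAt,
    DifferentiableAt.comp (g := fun y => (F.triv (u (q w)) (u y)).2) (f := q) w h3 hq⟩

theorem FH.congr {u u' : V → E} {z : V} (h : FH F t u z) (hu : u' =ᶠ[𝓝 z] u) : FH F t u' z := by
  obtain ⟨h1, h2, h3⟩ := h
  have e := hu.self_of_nhds
  refine ⟨?_, h2.congr hu.symm, ?_⟩
  · filter_upwards [h1, hu] with y hy1 hy2
    rw [hy2, hy1]
  · rw [e]
    refine h3.congr_of_eventuallyEq ?_
    filter_upwards [hu] with y hy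
    rw [hy]

/-- holomorphic maps into the fibre -/
theorem holV_fib_iff {m : ℕ} {f : (Fin m → ℂ) → Fib F t} {z : Fin m → ℂ} :
    HolV f z ↔ FH F t (fun y => (f y).1) z := by
  constructor
  · rintro ⟨h1, h2⟩
    exact ⟨Eventually.of_forall fun y => (f y).prop,
      ContinuousAt.comp (g := Fib.val) (f := f) continuous_val.continuousAt h1, h2⟩
  · rintro ⟨-, h2, h3⟩
    exact ⟨isInducing_val.continuousAt_iff.2 h2, h3⟩

end

end Vale.Agent.P290.H805
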