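import Vale.Agent.P290.H805.Tube

/-! Gluing of etale tubes in a fibre of a family. -/

open Set Filter Metric
open scoped Topology NNReal ContDiff

namespace Vale.Agent.P290.H805

open Vale.Agent.P290.All Vale.Agent.P290 Vale.Agent.P290.K Vale.Agent.P290.H580

variable {T E : Type} [TopologicalSpace T] [TopologicalSpace E] {F : Family T E}
variable {V : Type} [NormedAddCommGroup V] [NormedSpace ℂ V] {t₀ : T}

section
variable {V : Type}

/-- the shift in the second variable -/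
def sh (y : V × C2) (c : C2) : V × C2 := (y.1, y.2 + c)

theorem sh_fst (y : V × C2) (c : C2) : (sh y c).1 = y.1 := rfl
theorem sh_snd (y : V × C2) (c : C2) : (sh y c).2 = y.2 + c := rfl
theorem sh_sh (y : V × C2) (c c' : C2) : sh (sh y c) c' = sh y (c + c') := by
  simp [sh, add_assoc]
theorem sh_zero (y : V × C2) : sh y 0 = y := by simp [sh]

theorem dist_sh [PseudoMetricSpace V] (y : V × C2) (c : C2) : dist (sh y c) y = ‖c‖ := by
  rw [Prod.dist_eq]
  simp [sh, dist_eq_norm]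

theorem continuous_sh [TopologicalSpace V] :
    Continuous (fun x : (V × C2) × C2 => sh x.1 x.2) := by
  unfold sh; fun_prop

end

theorem differentiable_sh : Differentiable ℂ (fun x : (V × C2) × C2 => sh x.1 x.2) := by
  unfold sh; fun_prop

omit [NormedSpace ℂ V] in
theorem sh_mem_thickening {S : Set (V × C2)} {y : V × C2} {c : C2} {ρ σ : ℝ}
    (hy : y ∈ thickening ρ S) (hc : ‖c‖ < σ) : sh y c ∈ thickening (ρ + σ) S := by
  rw [mem_thickening_iff] at hy ⊢
  obtain ⟨x, hx, hxy⟩ := hy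
  refine ⟨x, hx, ?_⟩
  have h1 := dist_triangle (sh y c) y x
  rw [dist_sh] at h1
  linarith

namespace Tube

/-- the coordinate of a fibrewise holomorphic map is holomorphic -/
theorem k_diff (D : Tube F V t₀) {W : Type} [NormedAddCommGroup W] [NormedSpace ℂ W] {j : D.J}
    {r : ℝ} {t : T} {q : W → V} {u : W → E} {y : W} (hq : DifferentiableAt ℂ q y)
    (hu : FH F t u y) (hO : q y ∈ D.O j) (hs : u y ∈ (F.triv (D.x j)).source) :
    DifferentiableAt ℂ (fun y => D.k j r (q y) (u y)) y := by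
  have h1 : DifferentiableAt ℂ (fun y => D.ζ j (q y)) y :=
    DifferentiableAt.comp (g := D.ζ j) (f := q) y (D.ζ_diff j _ hO) hq
  have h2 : DifferentiableAt ℂ (fun y => (F.triv (D.x j) (u y)).2 - D.c j (q y)) y :=
    (hu.diff hs).sub (DifferentiableAt.comp (g := D.c j) (f := q) y (D.c_diff hO) hq)
  exact DifferentiableAt.const_smul (h1.clm_apply h2) (((r⁻¹ : ℝ) : ℂ))

/-- the coordinate determines the point of the fibre -/
theorem k_inj (D : Tube F V t₀) {j : D.J} {r : ℝ} (hr : 0 < r) {z : V} (hz : z ∈ D.O j) {y y' : E}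
    (hy : y ∈ (F.triv (D.x j)).source) (hy' : y' ∈ (F.triv (D.x j)).source) (hp : F.p y = F.p y')
    (h : D.k j r z y = D.k j r z y') : y = y' := by
  have hr' : ((r⁻¹ : ℝ) : ℂ) ≠ 0 := by
    rw [Complex.ofReal_ne_zero]; positivity
  have h1 := smul_right_injective C2 hr' h
  have h2 := congrArg (D.η j z) h1
  rw [D.ηζ j z hz, D.ηζ j z hz] at h2
  have h3 : (F.triv (D.x j) y).2 = (F.triv (D.x j) y').2 := sub_left_injective h2
  apply (F.triv (D.x j)).injOn hy hy'
  rw [F.mk_eq _ hy, F.mk_eq _ hy', hp, h3]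

/-- The transition map between two etale tubes. -/
theorem exists_transition [FiniteDimensional ℂ V] (D : Tube F V t₀) {r : ℝ} (hr : 0 < r) {t : T} {A' B' : Set (V × C2)}
    {u u' : V × C2 → E} (hu : ∀ᶠ y in 𝓝ˢ A', FH F t u y) (hu' : ∀ᶠ y in 𝓝ˢ B', FH F t u' y)
    {δ ρ : ℝ} (hδ : 0 < δ) (hδρ : 8 * δ ≤ ρ) (hcu : ∀ y ∈ A', D.Cl δ r y (u y))
    (hcu' : ∀ y ∈ B', D.Cl δ r y (u' y)) {W : Set (V × C2)} (hW : IsOpen W)
    (hWA : ∀ y ∈ W, ∀ c, ‖c‖ < ρ → sh y c ∈ A') (hWB : W ⊆ B')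
    (hcov : ∀ y ∈ W, ∃ j, y.1 ∈ D.N j) :
    ∃ e : V × C2 → C2, ∀ y ∈ W, DifferentiableAt ℂ e y ∧ ‖e y‖ ≤ 2 * δ ∧ u (sh y (e y)) = u' y := by
  classical
  have hρ : 0 < ρ := by linarith
  have huA : ∀ y ∈ A', FH F t u y := fun y hy => hu.self_of_nhdsSet y hy
  have huB : ∀ y ∈ B', FH F t u' y := fun y hy => hu'.self_of_nhdsSet y hy
  have hpA : ∀ y ∈ A', F.p (u y) = t := fun y hy => (huA y hy).1.self_of_nhds
  have hpB : ∀ y ∈ B', F.p (u' y) = t := fun y hy => (huB y hy).1.self_of_nhds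
  -- the defect of the coordinate of `u` from the identity
  have hgd : ∀ y ∈ W, ∀ j, y.1 ∈ D.N j →
      DifferentiableOn ℂ (fun w => D.k j r y.1 (u (y.1, w)) - w) (ball y.2 ρ) := by
    intro y hy j hj w hw
    rw [mem_ball, dist_eq_norm] at hw
    have h1 := hWA y hy (w - y.2) hw
    have h2 : sh y (w - y.2) = (y.1, w) := by simp [sh]
    rw [h2] at h1
    have h3 : FH F t (fun w => u (y.1, w)) w := FH.comp (q := fun w : C2 => (y.1, w)) (huA _ h1)
      (by fun_prop)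
    exact ((D.k_diff (q := fun _ : C2 => y.1) (by fun_prop) h3 (D.sub j hj)
      (hcu _ h1 j hj).1).sub differentiableAt_id).differentiableWithinAt
  have hgb : ∀ y ∈ W, ∀ j, y.1 ∈ D.N j → ∀ w ∈ ball y.2 ρ,
      ‖D.k j r y.1 (u (y.1, w)) - w‖ ≤ δ := by
    intro y hy j hj w hw
    rw [mem_ball, dist_eq_norm] at hw
    have h1 := hWA y hy (w - y.2) hw
    have h2 : sh y (w - y.2) = (y.1, w) := by simp [sh]
    rw [h2] at h1
    exact (hcu _ h1 j hj).2.le
  -- uniqueness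
  have huniq : ∀ y ∈ W, ∀ c c' : C2, ‖c‖ < ρ / 2 → ‖c'‖ < ρ / 2 → u (sh y c) = u (sh y c') →
      c = c' := by
    intro y hy c c' hc hc' h
    obtain ⟨j, hj⟩ := hcov y hy
    refine nearId_inj hρ (hgd y hy j hj) (hgb y hy j hj) hδρ hc hc' ?_
    simp only [add_sub_cancel]
    have h' : u (y.1, y.2 + c) = u (y.1, y.2 + c') := h
    rw [h']
  -- existence
  have hex : ∀ y ∈ W, ∃ c : C2, ‖c‖ ≤ 2 * δ ∧ u (sh y c) = u' y := by
    intro y hy
    obtain ⟨j, hj⟩ := hcov y hy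
    have h1 := (hcu' y (hWB hy) j hj)
    obtain ⟨c, hc, hcb⟩ := nearId_surj hρ (hgd y hy j hj) (hgb y hy j hj) hδρ hδ
      (b := D.k j r y.1 (u' y)) h1.2.le
    refine ⟨c, hc, ?_⟩
    simp only [add_sub_cancel] at hcb
    have h2 : sh y c ∈ A' := hWA y hy c (by linarith)
    exact D.k_inj hr (D.sub j hj) (hcu _ h2 j hj).1 h1.1 (by rw [hpA _ h2, hpB _ (hWB hy)]) hcb
  choose! e he heu using hex
  refine ⟨e, fun y₁ hy₁ => ⟨?_, he y₁ hy₁, heu y₁ hy₁⟩⟩
  obtain ⟨j, hj⟩ := hcov y₁ hy₁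
  -- the implicit function theorem
  have he1 := he y₁ hy₁
  have hsh : sh y₁ (e y₁) ∈ A' := hWA y₁ hy₁ (e y₁) (by linarith)
  set G : (V × C2) × C2 → C2 := fun p => D.k j r p.1.1 (u (sh p.1 (e y₁ + p.2))) with hG
  have hq : Differentiable ℂ (fun p : (V × C2) × C2 => sh p.1 (e y₁ + p.2)) := by
    unfold sh; fun_prop
  have hq0 : sh y₁ (e y₁ + 0) = sh y₁ (e y₁) := by rw [add_zero]
  have hqc : Tendsto (fun p : (V × C2) × C2 => sh p.1 (e y₁ + p.2)) (𝓝 (y₁, 0))
      (𝓝 (sh y₁ (e y₁))) := by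
    have := hq.continuous.tendsto (y₁, (0 : C2))
    simp only [hq0] at this
    exact this
  have hFH : ∀ᶠ y in 𝓝 (sh y₁ (e y₁)), FH F t u y :=
    (eventually_nhdsSet_iff_forall.1 hu) _ hsh
  have hsrc : ∀ᶠ y in 𝓝 (sh y₁ (e y₁)), u y ∈ (F.triv (D.x j)).source :=
    (huA _ hsh).eventually_source (hcu _ hsh j hj).1
  have hO : ∀ᶠ p : (V × C2) × C2 in 𝓝 (y₁, (0 : C2)), p.1.1 ∈ D.O j := by
    have hc : Continuous fun p : (V × C2) × C2 => p.1.1 := by fun_prop
    exact hc.continuousAt.eventually ((D.isOpen j).mem_nhds (D.sub j hj))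
  have hGd : ∀ᶠ p in 𝓝 (y₁, (0 : C2)), DifferentiableAt ℂ G p := by
    filter_upwards [hqc.eventually hFH, hqc.eventually hsrc, hO] with p h1 h2 h3
    exact D.k_diff (q := fun p : (V × C2) × C2 => p.1.1) (by fun_prop)
      (FH.comp (u := u) (q := fun p : (V × C2) × C2 => sh p.1 (e y₁ + p.2)) h1
        hq.differentiableAt) h3 h2
  -- the derivative in the second variable
  set g : C2 → C2 := fun w => D.k j r y₁.1 (u (y₁.1, w)) - w with hg
  have hmem : y₁.2 + e y₁ ∈ ball y₁.2 (ρ / 2) := by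
    rw [mem_ball, dist_eq_norm, add_sub_cancel_left]; linarith
  have hg4 : ‖fderiv ℂ g (y₁.2 + e y₁)‖ ≤ 1 / 4 :=
    fderiv_le_of_bound hρ (hgd y₁ hy₁ j hj) (hgb y₁ hy₁ j hj) hδρ hmem
  have hgdiff : DifferentiableAt ℂ g (y₁.2 + e y₁) :=
    (hgd y₁ hy₁ j hj).differentiableAt (isOpen_ball.mem_nhds
      (ball_subset_ball (by linarith) hmem))
  have hder : ∀ v : C2, fderiv ℂ G (y₁, 0) (0, v) = v + fderiv ℂ g (y₁.2 + e y₁) v := by
    intro v
    have h1 : HasFDerivAt (fun v : C2 => G (y₁, v))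
        (fderiv ℂ G (y₁, 0) ∘L ContinuousLinearMap.inr ℂ (V × C2) C2) 0 :=
      HasFDerivAt.comp (f := fun v : C2 => ((y₁, v) : (V × C2) × C2)) (0 : C2)
        hGd.self_of_nhds.hasFDerivAt (hasFDerivAt_prodMk_right _ _)
    have h2 : HasFDerivAt (fun v : C2 => y₁.2 + (e y₁ + v)) (ContinuousLinearMap.id ℂ C2) 0 := by
      exact ((hasFDerivAt_id (0 : C2)).const_add (e y₁)).const_add y₁.2
    have h3 : HasFDerivAt g (fderiv ℂ g (y₁.2 + e y₁)) (y₁.2 + (e y₁ + 0)) := by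
      rw [add_zero]; exact hgdiff.hasFDerivAt
    have h4 : HasFDerivAt (fun v : C2 => G (y₁, v))
        (ContinuousLinearMap.id ℂ C2 + fderiv ℂ g (y₁.2 + e y₁)) 0 := by
      have h5 := h2.add (HasFDerivAt.comp (0 : C2) h3 h2)
      simp only [ContinuousLinearMap.comp_id] at h5
      refine h5.congr_of_eventuallyEq (Eventually.of_forall fun v => ?_)
      simp only [hG, hg, sh, Pi.add_apply, Function.comp]
      abel
    have h5 := h1.unique h4
    have h6 := congrArg (fun L : C2 →L[ℂ] C2 => L v) h5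
    simpa using h6
  have hsurj : ∀ y : C2, ∃ v, fderiv ℂ G (y₁, 0) (0, (ContinuousLinearMap.id ℂ C2) v) = y := by
    set L : C2 →L[ℂ] C2 := ContinuousLinearMap.id ℂ C2 + fderiv ℂ g (y₁.2 + e y₁) with hL
    have hLa : ∀ v, L v = v + fderiv ℂ g (y₁.2 + e y₁) v := fun v => rfl
    have hinj : Function.Injective (L : C2 →ₗ[ℂ] C2) := by
      rw [← LinearMap.ker_eq_bot, LinearMap.ker_eq_bot']
      intro v hv
      have h1 : v + fderiv ℂ g (y₁.2 + e y₁) v = 0 := hv
      have h2 : ‖fderiv ℂ g (y₁.2 + e y₁) v‖ ≤ 1 / 4 * ‖v‖ :=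
        (ContinuousLinearMap.le_opNorm _ _).trans
          (mul_le_mul_of_nonneg_right hg4 (norm_nonneg _))
      have h3 : ‖v‖ = ‖fderiv ℂ g (y₁.2 + e y₁) v‖ := by
        rw [eq_neg_of_add_eq_zero_left h1, norm_neg]
        rw [← eq_neg_of_add_eq_zero_left h1]
      have h4 := norm_nonneg v
      exact norm_eq_zero.1 (by linarith)
    have hs := LinearMap.injective_iff_surjective.1 hinj
    intro y
    obtain ⟨v, hv⟩ := hs y
    exact ⟨v, by rw [ContinuousLinearMap.id_apply, hder, ← hLa]; exact hv⟩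
  obtain ⟨ŵ, hŵ0, hŵ⟩ := local_exists G y₁ hGd (fun _ => ContinuousLinearMap.id ℂ C2)
    (Eventually.of_forall fun _ => by fun_prop) (Eventually.of_forall fun _ _ => rfl) hsurj
  -- the coordinate of `u'`
  have hB : y₁ ∈ B' := hWB hy₁
  set b : V × C2 → C2 := fun y => D.k j r y.1 (u' y) with hb
  have hsrc' : u' y₁ ∈ (F.triv (D.x j)).source := (hcu' _ hB j hj).1
  have hbd : DifferentiableAt ℂ b y₁ :=
    D.k_diff (q := fun y : V × C2 => y.1) (by fun_prop) (huB y₁ hB) (D.sub j hj) hsrc'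
  have hb0 : b y₁ = G (y₁, 0) := by
    simp only [hb, hG, hq0, heu y₁ hy₁]
  have hpair : Tendsto (fun y : V × C2 => (y, b y)) (𝓝 y₁) (𝓝 (y₁, G (y₁, 0))) := by
    rw [← hb0]
    exact continuousAt_id.prodMk hbd.continuousAt
  have hŵd : DifferentiableAt ℂ ŵ (y₁, b y₁) := by rw [hb0]; exact hŵ.self_of_nhds.1
  have hcomp : DifferentiableAt ℂ (fun y => e y₁ + ŵ (y, b y)) y₁ :=
    (DifferentiableAt.comp (g := ŵ) (f := fun y : V × C2 => (y, b y)) y₁ hŵd
      (differentiableAt_id.prodMk hbd)).const_add _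
  refine hcomp.congr_of_eventuallyEq ?_
  have hcc : ContinuousAt (fun y => e y₁ + ŵ (y, b y)) y₁ := hcomp.continuousAt
  have hc0 : e y₁ + ŵ (y₁, b y₁) = e y₁ := by rw [hb0, hŵ0, add_zero]
  have hsmall : ∀ᶠ y in 𝓝 y₁, ‖e y₁ + ŵ (y, b y)‖ < ρ / 2 := by
    refine hcc.norm.eventually (Iio_mem_nhds ?_)
    change ‖e y₁ + ŵ (y₁, b y₁)‖ < ρ / 2
    rw [hc0]; linarith
  have hlim : Tendsto (fun y => sh y (e y₁ + ŵ (y, b y))) (𝓝 y₁) (𝓝 (sh y₁ (e y₁))) := by
    have h1 : ContinuousAt (fun y => ((y, e y₁ + ŵ (y, b y)) : (V × C2) × C2)) y₁ :=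
      continuousAt_id.prodMk hcc
    have h2 : ContinuousAt (fun y => sh y (e y₁ + ŵ (y, b y))) y₁ :=
      ContinuousAt.comp (g := fun x : (V × C2) × C2 => sh x.1 x.2)
        (f := fun y => ((y, e y₁ + ŵ (y, b y)) : (V × C2) × C2)) continuous_sh.continuousAt h1
    rw [ContinuousAt, hc0] at h2
    exact h2
  filter_upwards [hW.mem_nhds hy₁, hpair.eventually hŵ, hsmall, hlim.eventually hsrc,
    (huB y₁ hB).eventually_source hsrc', (hlim.eventually hFH),
    continuous_fst.continuousAt.eventually ((D.isOpen j).mem_nhds (D.sub j hj))] with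
    y h1 h2 h3 h4 h5 h6 h7
  have h8 : G (y, ŵ (y, b y)) = b y := h2.2.1
  have h9 : u (sh y (e y₁ + ŵ (y, b y))) = u' y :=
    D.k_inj hr h7 h4 h5 (by rw [h6.1.self_of_nhds, hpB _ (hWB h1)]) h8
  refine huniq y h1 _ _ ?_ h3 (by rw [heu y h1, h9])
  have := he y h1
  linarith

/-- gluing of two etale tubes which are close to the reference -/
theorem merge [FiniteDimensional ℂ V] (D : Tube F V t₀) {Q : Set (V × C2)}
    (hcov : ∀ y ∈ Q, ∃ j, y.1 ∈ D.N j) :
    ∀ A B A' B' : Set (V × C2), Good A → Good B → Good A' → Good B' → Convex ℝ (A ∪ B) →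
      A ⊆ interior A' → B ⊆ interior B' → A' ∪ B' ⊆ Q → ∀ ε > 0, ∃ δ > 0,
      ∀ (r : ℝ) (t : T) (u u' : V × C2 → E), 0 < r →
        (∀ᶠ y in 𝓝ˢ A', FH F t u y) → (∀ᶠ y in 𝓝ˢ B', FH F t u' y) →
        (∀ y ∈ A', D.Cl δ r y (u y)) → (∀ y ∈ B', D.Cl δ r y (u' y)) →
        ∃ v : V × C2 → E, (∀ᶠ y in 𝓝ˢ (A ∪ B), FH F t v y) ∧
          ∀ y ∈ A ∪ B, D.Cl ε r y (v y) := by
  intro A B A' B' gA gB gA' gB' hconv hAA hBB hQ ε hε
  have hI : IsCompact (A ∩ B) := gA.1.inter gB.1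
  -- the margins
  obtain ⟨ρ₁, hρ₁, hs1⟩ := hI.exists_thickening_subset_open
    (isOpen_interior.inter isOpen_interior) (show A ∩ B ⊆ interior A' ∩ interior B' from
      fun y hy => ⟨hAA hy.1, hBB hy.2⟩)
  obtain ⟨ρ₂, hρ₂, hs2⟩ := gA.1.exists_thickening_subset_open isOpen_interior hAA
  obtain ⟨ρ₃, hρ₃, hs3⟩ := gB.1.exists_thickening_subset_open isOpen_interior hBB
  set ρ := min (ρ₁ / 3) (min ρ₂ ρ₃) with hρd
  have hρ : 0 < ρ := by positivity
  have l1 : 3 * ρ ≤ ρ₁ := by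
    have : ρ ≤ ρ₁ / 3 := min_le_left _ _
    linarith
  have l2 : ρ ≤ ρ₂ := (min_le_right _ _).trans (min_le_left _ _)
  have l3 : ρ ≤ ρ₃ := (min_le_right _ _).trans (min_le_right _ _)
  set ε₁ := min (ε / 2) ρ with hε₁
  have hε₁0 : 0 < ε₁ := by positivity
  have hε₁1 : ε₁ ≤ ε / 2 := min_le_left _ _
  have hε₁2 : ε₁ ≤ ρ := min_le_right _ _
  obtain ⟨δ₁, hδ₁, hns⟩ := ns_path gA gB hconv (W := thickening ρ (A ∩ B)) isOpen_thickening
    (self_subset_thickening hρ _) hρ ε₁ hε₁0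
  set δ := min (δ₁ / 2) (min (ρ / 8) (ε / 2)) with hδd
  have hδ : 0 < δ := by positivity
  have m1 : 2 * δ ≤ δ₁ := by
    have : δ ≤ δ₁ / 2 := min_le_left _ _
    linarith
  have m2 : 8 * δ ≤ ρ := by
    have : δ ≤ ρ / 8 := (min_le_right _ _).trans (min_le_left _ _)
    linarith
  have m3 : δ ≤ ε / 2 := (min_le_right _ _).trans (min_le_right _ _)
  refine ⟨δ, hδ, fun r t u u' hr hu hu' hcu hcu' => ?_⟩
  set W₂ := thickening (ρ + ρ) (A ∩ B) with hW₂
  have hW₂1 : ∀ y ∈ W₂, ∀ c : C2, ‖c‖ < ρ → sh y c ∈ thickening ρ₁ (A ∩ B) := fun y hy c hc =>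
    thickening_mono (by linarith) _ (sh_mem_thickening hy hc)
  have hW₂0 : W₂ ⊆ thickening ρ₁ (A ∩ B) := thickening_mono (by linarith) _
  obtain ⟨e, he⟩ := D.exists_transition hr hu hu' hδ m2 hcu hcu' (W := W₂) isOpen_thickening
    (fun y hy c hc => interior_subset (hs1 (hW₂1 y hy c hc)).1)
    (fun y hy => interior_subset (hs1 (hW₂0 hy)).2)
    (fun y hy => hcov y (hQ (Or.inr (interior_subset (hs1 (hW₂0 hy)).2))))
  -- splitting
  have hq : Differentiable ℂ (fun x : (V × C2) × C2 => sh x.1 x.2) := differentiable_sh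
  have hmem : ∀ x : (V × C2) × C2, x ∈ thickening ρ (A ∩ B) ×ˢ ball (0 : C2) ρ →
      sh x.1 x.2 ∈ W₂ := fun x hx =>
    sh_mem_thickening hx.1 (by simpa using hx.2)
  have hd : DifferentiableOn ℂ (fun x : (V × C2) × C2 => e (sh x.1 x.2))
      (thickening ρ (A ∩ B) ×ˢ ball (0 : C2) ρ) := by
    intro x hx
    exact (DifferentiableAt.comp (g := e) (f := fun x : (V × C2) × C2 => sh x.1 x.2) x
      (he _ (hmem x hx)).1 hq.differentiableAt).differentiableWithinAt
  obtain ⟨α', τ', ⟨Uα, hUα, hAU, hαd, -⟩, ⟨Uτ, hUτ, hBU, hτd, -⟩, h1, h2, h3⟩ :=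
    hns (fun _ x => e (sh x.1 x.2)) (fun _ _ => hd)
      (hd.continuousOn.comp (f := fun x : ℝ × ((V × C2) × C2) => x.2) continuousOn_snd
        fun x hx => hx.2)
      (fun _ _ x hx => (he _ (hmem x hx)).2.1.trans m1)
  have h0I : (0 : ℝ) ∈ Icc (0 : ℝ) 1 := ⟨le_rfl, zero_le_one⟩
  set α : V × C2 → C2 := α' 0 with hα
  set τ : V × C2 → C2 := τ' 0 with hτ
  have hαd' : ∀ y ∈ Uα, DifferentiableAt ℂ α y := fun y hy =>
    (hαd 0 h0I).differentiableAt (hUα.mem_nhds hy)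
  have hτd' : ∀ y ∈ Uτ, DifferentiableAt ℂ τ y := fun y hy =>
    (hτd 0 h0I).differentiableAt (hUτ.mem_nhds hy)
  have hαb : ∀ y ∈ A, ‖α y‖ < ε₁ := h1 0 h0I
  have hτb : ∀ y ∈ B, ‖τ y‖ < ε₁ := h2 0 h0I
  -- the glued map
  obtain ⟨v, hvA, hvB⟩ := exists_glue gA.1 gB.1 (fun y => u (sh y (α y)))
    (fun y => u' (sh y (τ y))) (by
      have e1 : ∀ᶠ y in 𝓝ˢ (A ∩ B), sh y (τ y) ∈ W₂ := by
        rw [eventually_nhdsSet_iff_forall]
        intro y hy
        have hc : ContinuousAt (fun y => sh y (τ y)) y :=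
          ContinuousAt.comp (g := fun x : (V × C2) × C2 => sh x.1 x.2)
            (f := fun y => ((y, τ y) : (V × C2) × C2)) continuous_sh.continuousAt
            (continuousAt_id.prodMk (hτd' y (hBU hy.2)).continuousAt)
        refine hc.eventually (isOpen_thickening.mem_nhds ?_)
        exact sh_mem_thickening (self_subset_thickening hρ _ hy) ((hτb y hy.2).trans_le hε₁2)
      filter_upwards [h3, e1] with y hy hy1
      have h4 : α y - τ y = e (sh y (τ y)) := hy 0 h0I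
      have h5 := (he _ hy1).2.2
      rw [sh_sh, ← h4, add_sub_cancel] at h5
      exact h5)
  refine ⟨v, ?_, ?_⟩
  · rw [nhdsSet_union, eventually_sup]
    constructor
    · have e1 : ∀ᶠ y in 𝓝ˢ A, FH F t (fun y => u (sh y (α y))) y := by
        rw [eventually_nhdsSet_iff_forall]
        intro y hy
        have hc : ContinuousAt (fun y => sh y (α y)) y :=
          ContinuousAt.comp (g := fun x : (V × C2) × C2 => sh x.1 x.2)
            (f := fun y => ((y, α y) : (V × C2) × C2)) continuous_sh.continuousAt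
            (continuousAt_id.prodMk (hαd' y (hAU hy)).continuousAt)
        have h4 : sh y (α y) ∈ A' := by
          refine interior_subset (hs2 (mem_thickening_iff.2 ⟨y, hy, ?_⟩))
          rw [dist_sh]
          exact (hαb y hy).trans_le (hε₁2.trans l2)
        filter_upwards [hc.eventually (eventually_nhdsSet_iff_forall.1 hu _ h4),
          hUα.mem_nhds (hAU hy)] with x hx hx'
        exact FH.comp (u := u) (q := fun y => sh y (α y)) hx
          (DifferentiableAt.comp (g := fun x : (V × C2) × C2 => sh x.1 x.2)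
            (f := fun y => ((y, α y) : (V × C2) × C2)) x hq.differentiableAt
            (differentiableAt_id.prodMk (hαd' x hx')))
      filter_upwards [e1, ev_ev_nhdsSet hvA] with y hy hy' using hy.congr hy'
    · have e1 : ∀ᶠ y in 𝓝ˢ B, FH F t (fun y => u' (sh y (τ y))) y := by
        rw [eventually_nhdsSet_iff_forall]
        intro y hy
        have hc : ContinuousAt (fun y => sh y (τ y)) y :=
          ContinuousAt.comp (g := fun x : (V × C2) × C2 => sh x.1 x.2)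
            (f := fun y => ((y, τ y) : (V × C2) × C2)) continuous_sh.continuousAt
            (continuousAt_id.prodMk (hτd' y (hBU hy)).continuousAt)
        have h4 : sh y (τ y) ∈ B' := by
          refine interior_subset (hs3 (mem_thickening_iff.2 ⟨y, hy, ?_⟩))
          rw [dist_sh]
          exact (hτb y hy).trans_le (hε₁2.trans l3)
        filter_upwards [hc.eventually (eventually_nhdsSet_iff_forall.1 hu' _ h4),
          hUτ.mem_nhds (hBU hy)] with x hx hx'
        exact FH.comp (u := u') (q := fun y => sh y (τ y)) hx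
          (DifferentiableAt.comp (g := fun x : (V × C2) × C2 => sh x.1 x.2)
            (f := fun y => ((y, τ y) : (V × C2) × C2)) x hq.differentiableAt
            (differentiableAt_id.prodMk (hτd' x hx')))
      filter_upwards [e1, ev_ev_nhdsSet hvB] with y hy hy' using hy.congr hy'
  · have key : ∀ (y : V × C2) (a : C2) (x : E), ‖a‖ < ε₁ → D.Cl δ r (sh y a) x →
        D.Cl ε r y x := by
      intro y a x ha h j hj
      obtain ⟨h5, h6⟩ := h j hj
      refine ⟨h5, ?_⟩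
      have h7 : D.k j r y.1 x - y.2 = (D.k j r (sh y a).1 x - (sh y a).2) + a := by
        simp only [sh]; abel
      rw [h7]
      refine (norm_add_le _ _).trans_lt ?_
      linarith
    rintro y (hy | hy)
    · rw [hvA.self_of_nhdsSet hy]
      refine key y (α y) _ (hαb y hy) (hcu _ ?_)
      refine interior_subset (hs2 (mem_thickening_iff.2 ⟨y, hy, ?_⟩))
      rw [dist_sh]
      exact (hαb y hy).trans_le (hε₁2.trans l2)
    · rw [hvB.self_of_nhdsSet hy]
      refine key y (τ y) _ (hτb y hy) (hcu' _ ?_)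
      refine interior_subset (hs3 (mem_thickening_iff.2 ⟨y, hy, ?_⟩))
      rw [dist_sh]
      exact (hτb y hy).trans_le (hε₁2.trans l3)

end Tube

end Vale.Agent.P290.H805
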