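import Vale.Agent.P290.H580.Split

/-! Maps of `ℂ²` which are close to the identity. -/

open Set Filter Metric
open scoped Topology NNReal

namespace Vale.Agent.P290.H805

open Vale.Agent.P290

/-- Cauchy estimate for the derivative of a bounded holomorphic map -/
theorem norm_fderiv_le_of_bound {V F : Type} [NormedAddCommGroup V] [NormedSpace ℂ V]
    [NormedAddCommGroup F] [NormedSpace ℂ F] {g : V → F} {p : V} {ρ δ : ℝ} (hρ : 0 < ρ)
    (hd : DifferentiableOn ℂ g (ball p ρ)) (hb : ∀ x ∈ ball p ρ, ‖g x‖ ≤ δ) :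
    ‖fderiv ℂ g p‖ ≤ δ / ρ := by
  have hδ : 0 ≤ δ := (norm_nonneg _).trans (hb p (mem_ball_self hρ))
  have hp : DifferentiableAt ℂ g p := hd.differentiableAt (ball_mem_nhds p hρ)
  refine ContinuousLinearMap.opNorm_le_bound _ (by positivity) fun h => ?_
  rcases eq_or_ne h 0 with rfl | hh
  · simp
  have hh' : 0 < ‖h‖ := norm_pos_iff.2 hh
  -- the slice
  set f : ℂ → F := fun s => g (p + s • h) with hf
  have hmem : ∀ s : ℂ, ‖s‖ < ρ / ‖h‖ → p + s • h ∈ ball p ρ := by
    intro s hs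
    rw [mem_ball, dist_eq_norm, add_sub_cancel_left, norm_smul]
    rwa [lt_div_iff₀ hh'] at hs
  have hlin : ∀ s : ℂ, HasDerivAt (fun s : ℂ => p + s • h) h s := by
    intro s
    simpa using ((hasDerivAt_id s).smul_const h).const_add p
  have hfd : DifferentiableOn ℂ f (ball 0 (ρ / ‖h‖)) := by
    intro s hs
    rw [mem_ball_zero_iff] at hs
    exact ((hd.differentiableAt (isOpen_ball.mem_nhds (hmem s hs))).comp s
      (hlin s).differentiableAt).differentiableWithinAt
  have hderiv : deriv f 0 = fderiv ℂ g p h := by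
    have h1 : HasFDerivAt g (fderiv ℂ g p) (p + (0 : ℂ) • h) := by
      rw [zero_smul, add_zero]; exact hp.hasFDerivAt
    exact (h1.comp_hasDerivAt (0 : ℂ) (hlin 0)).deriv
  rw [← hderiv]
  have key : ∀ R : ℝ, 0 < R → R < ρ / ‖h‖ → ‖deriv f 0‖ ≤ δ / R := by
    intro R hR hR'
    have hsub : closedBall (0 : ℂ) R ⊆ ball 0 (ρ / ‖h‖) := closedBall_subset_ball hR'
    have hdc : DiffContOnCl ℂ f (ball 0 R) := by
      refine DifferentiableOn.diffContOnCl ?_
      rw [closure_ball (0 : ℂ) hR.ne']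
      exact hfd.mono hsub
    refine Complex.norm_deriv_le_of_forall_mem_sphere_norm_le hR hdc fun s hs => ?_
    refine hb _ (hmem s ?_)
    rw [mem_sphere_zero_iff_norm] at hs
    rw [hs]; exact hR'
  have hlim : Tendsto (fun R : ℝ => δ / R) (𝓝[<] (ρ / ‖h‖)) (𝓝 (δ / (ρ / ‖h‖))) := by
    refine Tendsto.mono_left ?_ nhdsWithin_le_nhds
    exact tendsto_const_nhds.div tendsto_id (by positivity)
  have h2 : ∀ᶠ R in 𝓝[<] (ρ / ‖h‖), ‖deriv f 0‖ ≤ δ / R := by
    have hpos : (0 : ℝ) < ρ / ‖h‖ := by positivity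
    filter_upwards [Ioo_mem_nhdsLT hpos] with R hR using key R hR.1 hR.2
  have h3 := ge_of_tendsto hlim h2
  calc ‖deriv f 0‖ ≤ δ / (ρ / ‖h‖) := h3
    _ = δ / ρ * ‖h‖ := by field_simp

section
variable {g : C2 → C2} {w : C2} {ρ δ : ℝ}

theorem lip_of_bound (hρ : 0 < ρ) (hd : DifferentiableOn ℂ g (ball w ρ))
    (hb : ∀ x ∈ ball w ρ, ‖g x‖ ≤ δ) (hδ : 8 * δ ≤ ρ) {x y : C2} (hx : x ∈ ball w (ρ / 2))
    (hy : y ∈ ball w (ρ / 2)) : ‖g x - g y‖ ≤ 1 / 4 * ‖x - y‖ := by
  refine Convex.norm_image_sub_le_of_norm_fderiv_le (𝕜 := ℂ) (s := ball w (ρ / 2)) ?_ ?_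
    (convex_ball _ _) hy hx
  · intro z hz
    exact hd.differentiableAt (isOpen_ball.mem_nhds (ball_subset_ball (by linarith) hz))
  · intro z hz
    have hsub : ball z (ρ / 2) ⊆ ball w ρ := by
      refine ball_subset_ball' ?_
      rw [mem_ball] at hz
      linarith
    refine (norm_fderiv_le_of_bound (by positivity) (hd.mono hsub) fun x hx => hb x (hsub hx)).trans
      ?_
    rw [div_le_iff₀ (by positivity)]
    linarith

theorem fderiv_le_of_bound (hρ : 0 < ρ) (hd : DifferentiableOn ℂ g (ball w ρ))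
    (hb : ∀ x ∈ ball w ρ, ‖g x‖ ≤ δ) (hδ : 8 * δ ≤ ρ) {x : C2} (hx : x ∈ ball w (ρ / 2)) :
    ‖fderiv ℂ g x‖ ≤ 1 / 4 := by
  have hsub : ball x (ρ / 2) ⊆ ball w ρ := by
    refine ball_subset_ball' ?_
    rw [mem_ball] at hx
    linarith
  refine (norm_fderiv_le_of_bound (by positivity) (hd.mono hsub) fun x hx => hb x (hsub hx)).trans
    ?_
  rw [div_le_iff₀ (by positivity)]
  linarith

/-- near identity maps are injective -/
theorem nearId_inj (hρ : 0 < ρ) (hd : DifferentiableOn ℂ g (ball w ρ))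
    (hb : ∀ x ∈ ball w ρ, ‖g x‖ ≤ δ) (hδ : 8 * δ ≤ ρ) {c c' : C2} (hc : ‖c‖ < ρ / 2)
    (hc' : ‖c'‖ < ρ / 2) (h : w + c + g (w + c) = w + c' + g (w + c')) : c = c' := by
  have h1 := lip_of_bound hρ hd hb hδ (x := w + c) (y := w + c') (by simpa using hc)
    (by simpa using hc')
  have h2 : g (w + c) - g (w + c') = c' - c := by
    have : g (w + c) = w + c' + g (w + c') - (w + c) := by rw [← h]; abel
    rw [this]; abel
  rw [h2, add_sub_add_left_eq_sub, norm_sub_rev c' c] at h1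
  have h3 := norm_nonneg (c - c')
  have h4 : ‖c - c'‖ = 0 := by linarith
  exact sub_eq_zero.1 (norm_eq_zero.1 h4)

/-- near identity maps are surjective -/
theorem nearId_surj (hρ : 0 < ρ) (hd : DifferentiableOn ℂ g (ball w ρ))
    (hb : ∀ x ∈ ball w ρ, ‖g x‖ ≤ δ) (hδ : 8 * δ ≤ ρ) (hδ0 : 0 < δ) {b : C2} (hbw : ‖b - w‖ ≤ δ) :
    ∃ c, ‖c‖ ≤ 2 * δ ∧ w + c + g (w + c) = b := by
  set f : C2 → C2 := fun c => b - w - g (w + c) with hf
  set s : Set C2 := closedBall 0 (2 * δ) with hs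
  have hmem : ∀ c ∈ s, w + c ∈ ball w (ρ / 2) := by
    intro c hc
    rw [hs, mem_closedBall_zero_iff] at hc
    rw [mem_ball, dist_eq_norm, add_sub_cancel_left]
    linarith
  have hmaps : MapsTo f s s := by
    intro c hc
    rw [hs, mem_closedBall_zero_iff, hf]
    have h1 := hb (w + c) (ball_subset_ball (by linarith) (hmem c hc))
    calc ‖b - w - g (w + c)‖ ≤ ‖b - w‖ + ‖g (w + c)‖ := norm_sub_le _ _
      _ ≤ 2 * δ := by linarith
  have hcon : ContractingWith (1 / 4) (hmaps.restrict f s s) := by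
    refine ⟨by
      rw [div_lt_one (by norm_num)]; norm_num, ?_⟩
    refine LipschitzWith.of_dist_le_mul fun x y => ?_
    rw [Subtype.dist_eq, Subtype.dist_eq, dist_eq_norm, dist_eq_norm]
    have h1 := lip_of_bound hρ hd hb hδ (hmem y.1 y.2) (hmem x.1 x.2)
    have h2 : ((hmaps.restrict f s s x : s) : C2) - ((hmaps.restrict f s s y : s) : C2) =
        g (w + y.1) - g (w + x.1) := by
      simp only [MapsTo.val_restrict_apply, hf]
      abel
    rw [h2]
    rw [add_sub_add_left_eq_sub, norm_sub_rev (y : C2) x] at h1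
    simpa using h1
  obtain ⟨c, hc, hfix, -⟩ := hcon.exists_fixedPoint' isClosed_closedBall.isComplete hmaps
    (mem_closedBall_self (by positivity)) (edist_ne_top _ _)
  refine ⟨c, by rwa [hs, mem_closedBall_zero_iff] at hc, ?_⟩
  have h1 : b - w - g (w + c) = c := hfix
  rw [← sub_eq_zero]
  have : w + c + g (w + c) - b = c - (b - w - g (w + c)) := by abel
  rw [this, h1, sub_self]

end

end Vale.Agent.P290.H805
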