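import Vale.Agent.P290.H805.Fam
import Vale.Agent.P290.H805.NearId

/-! Coordinates along a holomorphic map into a fibre of a family, and the transition estimates. -/

open Set Filter Metric
open scoped Topology NNReal ContDiff

namespace Vale.Agent.P290.H805

open Vale.Agent.P290.All Vale.Agent.P290

variable {T E : Type} [TopologicalSpace T] [TopologicalSpace E] {F : Family T E}

/-- the transition map of the fibre over `t` between the trivialisations at `x` and `x'` -/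
noncomputable def tr (F : Family T E) (x x' : E) (t : T) (v : C2) : C2 :=
  (F.triv x' ((F.triv x).symm (t, v))).2

/-- Coordinates along the map `u₀` into the fibre over `t₀`: `J` finite, `N j` compact, `O j` open;
`η j z` is an invertible linear map, a frame of the pulled back tangent bundle. -/
structure Tube (F : Family T E) (V : Type) [NormedAddCommGroup V] [NormedSpace ℂ V] (t₀ : T) where
  u₀ : V → E
  J : Type
  finite : Finite J
  x : J → E
  O : J → Set V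
  N : J → Set V
  isOpen : ∀ j, IsOpen (O j)
  compact : ∀ j, IsCompact (N j)
  sub : ∀ j, N j ⊆ O j
  hol : ∀ j, ∀ z ∈ O j, FH F t₀ u₀ z
  src : ∀ j, ∀ z ∈ O j, u₀ z ∈ (F.triv (x j)).source
  η : J → V → C2 →L[ℂ] C2
  ζ : J → V → C2 →L[ℂ] C2
  η_diff : ∀ j, ∀ z ∈ O j, DifferentiableAt ℂ (η j) z
  ζ_diff : ∀ j, ∀ z ∈ O j, DifferentiableAt ℂ (ζ j) z
  ζη : ∀ j, ∀ z ∈ O j, ∀ v, ζ j z (η j z v) = v
  ηζ : ∀ j, ∀ z ∈ O j, ∀ v, η j z (ζ j z v) = v
  trans : ∀ i j, ∀ z ∈ O i, z ∈ O j → ∀ v, η j z v =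
    fderiv ℂ (tr F (x i) (x j) t₀) (F.triv (x i) (u₀ z)).2 (η i z v)

namespace Tube

variable {V : Type} [NormedAddCommGroup V] [NormedSpace ℂ V] {t₀ : T}

/-- the coordinate of `u₀` -/
noncomputable def c (D : Tube F V t₀) (j : D.J) (z : V) : C2 := (F.triv (D.x j) (D.u₀ z)).2

/-- the rescaled coordinate of the point `y` relative to `z` -/
noncomputable def k (D : Tube F V t₀) (j : D.J) (r : ℝ) (z : V) (y : E) : C2 :=
  ((r⁻¹ : ℝ) : ℂ) • D.ζ j z ((F.triv (D.x j) y).2 - D.c j z)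

/-- the point with rescaled coordinate `w` -/
noncomputable def P (D : Tube F V t₀) (j : D.J) (r : ℝ) (t : T) (z : V) (w : C2) : E :=
  (F.triv (D.x j)).symm (t, D.c j z + (r : ℂ) • D.η j z w)

theorem c_diff (D : Tube F V t₀) {j : D.J} {z : V} (hz : z ∈ D.O j) :
    DifferentiableAt ℂ (D.c j) z := (D.hol j z hz).diff (D.src j z hz)

theorem triv_u₀ (D : Tube F V t₀) {j : D.J} {z : V} (hz : z ∈ D.O j) :
    F.triv (D.x j) (D.u₀ z) = (t₀, D.c j z) := by
  rw [F.mk_eq _ (D.src j z hz), (D.hol j z hz).1.self_of_nhds]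
  rfl

theorem c_mem (D : Tube F V t₀) {j : D.J} {z : V} (hz : z ∈ D.O j) :
    (t₀, D.c j z) ∈ (F.triv (D.x j)).target := by
  rw [← D.triv_u₀ hz]; exact (F.triv (D.x j)).map_source (D.src j z hz)

theorem symm_c (D : Tube F V t₀) {j : D.J} {z : V} (hz : z ∈ D.O j) :
    (F.triv (D.x j)).symm (t₀, D.c j z) = D.u₀ z := by
  rw [← D.triv_u₀ hz, (F.triv (D.x j)).left_inv (D.src j z hz)]

/-- the triple `(t, v)` belongs to the domain of the transition map from `i` to `j` -/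
def Ok (D : Tube F V t₀) (i j : D.J) (q : T × C2) : Prop :=
  q ∈ (F.triv (D.x i)).target ∧ (F.triv (D.x i)).symm q ∈ (F.triv (D.x j)).source

theorem ok_c (D : Tube F V t₀) {i j : D.J} {z : V} (hi : z ∈ D.O i) (hj : z ∈ D.O j) :
    D.Ok i j (t₀, D.c i z) := by
  refine ⟨D.c_mem hi, ?_⟩
  rw [D.symm_c hi]; exact D.src j z hj

theorem isOpen_ok (D : Tube F V t₀) (i j : D.J) : IsOpen {q | D.Ok i j q} :=
  (F.triv (D.x i)).symm.isOpen_inter_preimage (F.triv (D.x j)).open_source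

theorem tr_contDiffAt (D : Tube F V t₀) {i j : D.J} {t : T} {v : C2} (h : D.Ok i j (t, v)) :
    ContDiffAt ℂ ω (tr F (D.x i) (D.x j) t) v := F.hol _ _ t v h.1 h.2

theorem tr_continuousAt (D : Tube F V t₀) {i j : D.J} {q : T × C2} (h : D.Ok i j q) :
    ContinuousAt (fun q : T × C2 => tr F (D.x i) (D.x j) q.1 q.2) q := by
  have h1 : ContinuousAt (F.triv (D.x i)).symm q := (F.triv (D.x i)).continuousAt_symm h.1
  have h2 : ContinuousAt (F.triv (D.x j)) ((F.triv (D.x i)).symm q) :=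
    (F.triv (D.x j)).continuousAt h.2
  exact continuous_snd.continuousAt.comp (h2.comp h1)

theorem tr_c (D : Tube F V t₀) {i j : D.J} {z : V} (hi : z ∈ D.O i) :
    tr F (D.x i) (D.x j) t₀ (D.c i z) = D.c j z := by
  rw [tr, D.symm_c hi]; rfl

/-- admissible parameters `(r, t)`, with the fixed radius `ρ` -/
def Adm (D : Tube F V t₀) (ρ : ℝ) (r : ℝ) (t : T) : Prop :=
  0 < r ∧ ∀ i j, ∀ z ∈ D.N i ∩ D.N j, ∀ κ : C2, ‖κ‖ ≤ ρ → D.Ok i j (t, D.c i z + κ) ∧
    ‖tr F (D.x i) (D.x j) t (D.c i z + κ) - tr F (D.x i) (D.x j) t₀ (D.c i z + κ)‖ ≤ r ^ 2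

/-- a uniform version of the tube lemma -/
theorem exists_uniform {X P : Type} [TopologicalSpace X] [PseudoMetricSpace P] {K : Set X}
    (hK : IsCompact K) (p₀ : P) (S : Set (X × P)) (hS : ∀ z ∈ K, S ∈ 𝓝 (z, p₀)) :
    ∃ δ > 0, ∀ z ∈ K, ∀ p, dist p p₀ ≤ δ → (z, p) ∈ S := by
  have h1 : ∀ᶠ p in 𝓝 p₀, ∀ z ∈ K, (z, p) ∈ S := by
    refine hK.eventually_forall_of_forall_eventually fun z hz => ?_
    exact (continuous_swap.tendsto ((p₀, z) : P × X)).eventually (hS z hz)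
  obtain ⟨δ, hδ, h⟩ := Metric.nhds_basis_closedBall.mem_iff.1 h1
  exact ⟨δ, hδ, fun z hz p hp => h (mem_closedBall.2 hp) z hz⟩

/-- there is a radius for which admissible parameters exist -/
theorem exists_adm (D : Tube F V t₀) : ∃ ρ > 0, ∀ r : ℝ, 0 < r → ∀ᶠ t in 𝓝 t₀, D.Adm ρ r t := by
  have := D.finite
  have h1 : ∀ q : D.J × D.J, ∃ ρ > 0, ∀ z ∈ D.N q.1 ∩ D.N q.2, ∀ κ : C2, ‖κ‖ ≤ ρ →
      D.Ok q.1 q.2 (t₀, D.c q.1 z + κ) := by
    rintro ⟨i, j⟩
    have hK : IsCompact (D.N i ∩ D.N j) := (D.compact i).inter (D.compact j)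
    obtain ⟨δ, hδ, h⟩ := exists_uniform hK (0 : C2)
      {x : V × C2 | D.Ok i j (t₀, D.c i x.1 + x.2)} (by
        intro z hz
        have hi := D.sub i hz.1
        have hj := D.sub j hz.2
        have hc : ContinuousAt (fun x : V × C2 => ((t₀, D.c i x.1 + x.2) : T × C2)) (z, 0) := by
          refine continuousAt_const.prodMk (ContinuousAt.add ?_ continuous_snd.continuousAt)
          exact ContinuousAt.comp (g := D.c i) (f := fun x : V × C2 => x.1) (x := (z, 0))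
            (D.c_diff hi).continuousAt continuous_fst.continuousAt
        refine hc.eventually ((D.isOpen_ok i j).mem_nhds ?_)
        simpa using D.ok_c hi hj)
    exact ⟨δ, hδ, fun z hz κ hκ => h z hz κ (by simpa using hκ)⟩
  choose ρ hρ h2 using h1
  obtain ⟨ρ₀, hρ₀, hle⟩ : ∃ ρ₀ > 0, ∀ q, ρ₀ ≤ ρ q := by
    rcases isEmpty_or_nonempty (D.J × D.J) with h | h
    · exact ⟨1, one_pos, fun j => isEmptyElim j⟩
    · obtain ⟨j, hj⟩ := Finite.exists_min ρ
      exact ⟨ρ j, hρ j, hj⟩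
  refine ⟨ρ₀, hρ₀, fun r hr => ?_⟩
  have h3 : ∀ q : D.J × D.J, ∀ᶠ t in 𝓝 t₀, ∀ y ∈ (D.N q.1 ∩ D.N q.2) ×ˢ closedBall (0 : C2) ρ₀,
      D.Ok q.1 q.2 (t, D.c q.1 y.1 + y.2) ∧
        ‖tr F (D.x q.1) (D.x q.2) t (D.c q.1 y.1 + y.2) -
          tr F (D.x q.1) (D.x q.2) t₀ (D.c q.1 y.1 + y.2)‖ ≤ r ^ 2 := by
    rintro ⟨i, j⟩
    have hK : IsCompact ((D.N i ∩ D.N j) ×ˢ closedBall (0 : C2) ρ₀) :=
      ((D.compact i).inter (D.compact j)).prod (isCompact_closedBall _ _)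
    refine hK.eventually_forall_of_forall_eventually fun y hy => ?_
    obtain ⟨⟨hi, hj⟩, hκ⟩ := hy
    rw [mem_closedBall_zero_iff] at hκ
    have hok := h2 (i, j) y.1 ⟨hi, hj⟩ y.2 (hκ.trans (hle _))
    have hc : ContinuousAt (fun x : (V × C2) × T => ((x.2, D.c i x.1.1 + x.1.2) : T × C2))
        (y, t₀) := by
      refine continuous_snd.continuousAt.prodMk (ContinuousAt.add ?_
        (continuous_snd.comp continuous_fst).continuousAt)
      exact ContinuousAt.comp (g := D.c i) (f := fun x : (V × C2) × T => x.1.1) (x := (y, t₀))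
        (D.c_diff (D.sub i hi)).continuousAt (continuous_fst.comp continuous_fst).continuousAt
    have hc' : ContinuousAt (fun x : (V × C2) × T => ((t₀, D.c i x.1.1 + x.1.2) : T × C2))
        (y, t₀) := by
      refine continuousAt_const.prodMk (ContinuousAt.add ?_
        (continuous_snd.comp continuous_fst).continuousAt)
      exact ContinuousAt.comp (g := D.c i) (f := fun x : (V × C2) × T => x.1.1) (x := (y, t₀))
        (D.c_diff (D.sub i hi)).continuousAt (continuous_fst.comp continuous_fst).continuousAt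
    have e1 : ∀ᶠ x : (V × C2) × T in 𝓝 (y, t₀), D.Ok i j (x.2, D.c i x.1.1 + x.1.2) :=
      hc.eventually ((D.isOpen_ok i j).mem_nhds hok)
    have e2 : ContinuousAt (fun x : (V × C2) × T =>
        ‖tr F (D.x i) (D.x j) x.2 (D.c i x.1.1 + x.1.2) -
          tr F (D.x i) (D.x j) t₀ (D.c i x.1.1 + x.1.2)‖) (y, t₀) := by
      refine ContinuousAt.norm (ContinuousAt.sub ?_ ?_)
      · exact ContinuousAt.comp (g := fun q : T × C2 => tr F (D.x i) (D.x j) q.1 q.2)
          (f := fun x : (V × C2) × T => ((x.2, D.c i x.1.1 + x.1.2) : T × C2)) (x := (y, t₀))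
          (D.tr_continuousAt hok) hc
      · exact ContinuousAt.comp (g := fun q : T × C2 => tr F (D.x i) (D.x j) q.1 q.2)
          (f := fun x : (V × C2) × T => ((t₀, D.c i x.1.1 + x.1.2) : T × C2)) (x := (y, t₀))
          (D.tr_continuousAt hok) hc'
    have e3 : ∀ᶠ x : (V × C2) × T in 𝓝 (y, t₀),
        ‖tr F (D.x i) (D.x j) x.2 (D.c i x.1.1 + x.1.2) -
          tr F (D.x i) (D.x j) t₀ (D.c i x.1.1 + x.1.2)‖ < r ^ 2 := by
      refine e2.eventually (Iio_mem_nhds ?_)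
      simp only [sub_self, norm_zero]
      positivity
    have e4 := (continuous_swap.tendsto ((t₀, y) : T × (V × C2))).eventually (e1.and e3)
    filter_upwards [e4] with x hx using ⟨hx.1, hx.2.le⟩
  have h4 : ∀ᶠ t in 𝓝 t₀, ∀ q : D.J × D.J, ∀ y ∈ (D.N q.1 ∩ D.N q.2) ×ˢ closedBall (0 : C2) ρ₀,
      D.Ok q.1 q.2 (t, D.c q.1 y.1 + y.2) ∧
        ‖tr F (D.x q.1) (D.x q.2) t (D.c q.1 y.1 + y.2) -
          tr F (D.x q.1) (D.x q.2) t₀ (D.c q.1 y.1 + y.2)‖ ≤ r ^ 2 := eventually_all.2 h3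
  filter_upwards [h4] with t ht
  exact ⟨hr, fun i j z hz κ hκ => ht (i, j) (z, κ) ⟨hz, by simpa using hκ⟩⟩

/-- uniform differentiability of the transition maps along `u₀` -/
theorem exists_strict (D : Tube F V t₀) {ε : ℝ} (hε : 0 < ε) : ∃ ρ > 0, ∀ i j,
    ∀ z ∈ D.N i ∩ D.N j, ∀ κ : C2, ‖κ‖ ≤ ρ →
      ‖tr F (D.x i) (D.x j) t₀ (D.c i z + κ) - D.c j z -
        fderiv ℂ (tr F (D.x i) (D.x j) t₀) (D.c i z) κ‖ ≤ ε * ‖κ‖ := by
  have := D.finite
  have h1 : ∀ q : D.J × D.J, ∃ ρ > 0, ∀ z ∈ D.N q.1 ∩ D.N q.2, ∀ κ : C2, ‖κ‖ ≤ ρ →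
      ‖tr F (D.x q.1) (D.x q.2) t₀ (D.c q.1 z + κ) - D.c q.2 z -
        fderiv ℂ (tr F (D.x q.1) (D.x q.2) t₀) (D.c q.1 z) κ‖ ≤ ε * ‖κ‖ := by
    rintro ⟨i, j⟩
    have hK : IsCompact (D.N i ∩ D.N j) := (D.compact i).inter (D.compact j)
    obtain ⟨δ, hδ, h⟩ := exists_uniform hK (0 : C2)
      {x : V × C2 | ‖tr F (D.x i) (D.x j) t₀ (D.c i x.1 + x.2) -
        tr F (D.x i) (D.x j) t₀ (D.c i x.1) -
        fderiv ℂ (tr F (D.x i) (D.x j) t₀) (D.c i x.1) x.2‖ ≤ ε * ‖x.2‖} (by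
        intro z hz
        have hi := D.sub i hz.1
        have hj := D.sub j hz.2
        have hok := D.ok_c hi hj
        have hcd := D.tr_contDiffAt hok
        have hst := (hcd.hasStrictFDerivAt (by simp)).isLittleO.def (half_pos hε)
        -- continuity of the derivative
        have hfc : ContinuousAt (fderiv ℂ (tr F (D.x i) (D.x j) t₀)) (D.c i z) :=
          (hcd.fderiv_right (m := 0) (by simp)).continuousAt
        have hc1 : ContinuousAt (fun x : V × C2 => D.c i x.1) (z, 0) :=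
          ContinuousAt.comp (g := D.c i) (f := fun x : V × C2 => x.1) (x := (z, 0))
            (D.c_diff hi).continuousAt continuous_fst.continuousAt
        have hc2 : ContinuousAt (fun x : V × C2 => D.c i x.1 + x.2) (z, 0) :=
          hc1.add continuous_snd.continuousAt
        have e1 : ∀ᶠ x : V × C2 in 𝓝 (z, 0),
            ‖fderiv ℂ (tr F (D.x i) (D.x j) t₀) (D.c i x.1) -
              fderiv ℂ (tr F (D.x i) (D.x j) t₀) (D.c i z)‖ < ε / 2 := by
          have h5 : ContinuousAt (fun x : V × C2 =>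
              fderiv ℂ (tr F (D.x i) (D.x j) t₀) (D.c i x.1)) (z, 0) :=
            ContinuousAt.comp (g := fderiv ℂ (tr F (D.x i) (D.x j) t₀))
              (f := fun x : V × C2 => D.c i x.1) (x := (z, 0)) hfc hc1
          have h6 := h5.eventually (ball_mem_nhds _ (half_pos hε))
          filter_upwards [h6] with x hx
          rwa [dist_eq_norm] at hx
        have hc3 : Tendsto (fun x : V × C2 => ((D.c i x.1 + x.2, D.c i x.1) : C2 × C2))
            (𝓝 (z, 0)) (𝓝 (D.c i z, D.c i z)) := by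
          have := hc2.prodMk hc1
          rw [ContinuousAt] at this
          simpa using this
        filter_upwards [hc3.eventually hst, e1] with x h7 h8
        simp only [add_sub_cancel_left] at h7
        calc ‖tr F (D.x i) (D.x j) t₀ (D.c i x.1 + x.2) -
              tr F (D.x i) (D.x j) t₀ (D.c i x.1) -
              fderiv ℂ (tr F (D.x i) (D.x j) t₀) (D.c i x.1) x.2‖
            = ‖(tr F (D.x i) (D.x j) t₀ (D.c i x.1 + x.2) -
              tr F (D.x i) (D.x j) t₀ (D.c i x.1) -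
              fderiv ℂ (tr F (D.x i) (D.x j) t₀) (D.c i z) x.2) -
              (fderiv ℂ (tr F (D.x i) (D.x j) t₀) (D.c i x.1) -
                fderiv ℂ (tr F (D.x i) (D.x j) t₀) (D.c i z)) x.2‖ := by
              congr 1
              rw [sub_apply]
              abel
          _ ≤ ε / 2 * ‖x.2‖ + ε / 2 * ‖x.2‖ := by
              refine (norm_sub_le _ _).trans (add_le_add h7 ?_)
              refine (ContinuousLinearMap.le_opNorm _ _).trans ?_
              exact mul_le_mul_of_nonneg_right h8.le (norm_nonneg _)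
          _ = ε * ‖x.2‖ := by ring)
    refine ⟨δ, hδ, fun z hz κ hκ => ?_⟩
    have := h z hz κ (by simpa using hκ)
    simp only [Set.mem_ofPred_eq, D.tr_c (j := j) (D.sub i hz.1)] at this
    exact this
  choose ρ hρ h2 using h1
  obtain ⟨ρ₀, hρ₀, hle⟩ : ∃ ρ₀ > 0, ∀ q, ρ₀ ≤ ρ q := by
    rcases isEmpty_or_nonempty (D.J × D.J) with h | h
    · exact ⟨1, one_pos, fun j => isEmptyElim j⟩
    · obtain ⟨j, hj⟩ := Finite.exists_min ρ
      exact ⟨ρ j, hρ j, hj⟩
  exact ⟨ρ₀, hρ₀, fun i j z hz κ hκ => h2 (i, j) z hz κ (hκ.trans (hle _))⟩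

/-- bounds for the frames -/
theorem exists_bound (D : Tube F V t₀) : ∃ L > 0, ∀ j, ∀ z ∈ D.N j, ‖D.η j z‖ ≤ L ∧
    ‖D.ζ j z‖ ≤ L := by
  have := D.finite
  have h1 : ∀ j, ∃ L : ℝ, ∀ z ∈ D.N j, ‖D.η j z‖ ≤ L ∧ ‖D.ζ j z‖ ≤ L := by
    intro j
    obtain ⟨L1, h1⟩ := (D.compact j).exists_bound_of_continuousOn (f := D.η j) fun z hz =>
      (D.η_diff j z (D.sub j hz)).continuousAt.continuousWithinAt
    obtain ⟨L2, h2⟩ := (D.compact j).exists_bound_of_continuousOn (f := D.ζ j) fun z hz =>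
      (D.ζ_diff j z (D.sub j hz)).continuousAt.continuousWithinAt
    exact ⟨max L1 L2, fun z hz => ⟨(h1 z hz).trans (le_max_left _ _),
      (h2 z hz).trans (le_max_right _ _)⟩⟩
  choose L hL using h1
  obtain ⟨B, hB⟩ := (Set.finite_range L).bddAbove
  refine ⟨max B 1, lt_of_lt_of_le one_pos (le_max_right _ _), fun j z hz => ?_⟩
  have h3 : L j ≤ max B 1 := (hB ⟨j, rfl⟩).trans (le_max_left _ _)
  exact ⟨(hL j z hz).1.trans h3, (hL j z hz).2.trans h3⟩

/-- closeness of the point `y` to the point with coordinate `w` -/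
def Cl (D : Tube F V t₀) (ε r : ℝ) (q : V × C2) (y : E) : Prop :=
  ∀ j, q.1 ∈ D.N j → y ∈ (F.triv (D.x j)).source ∧ ‖D.k j r q.1 y - q.2‖ < ε

/-- the local solution is close to the identity in all the other coordinates -/
theorem exists_est (D : Tube F V t₀) {ρ : ℝ} (hρ : 0 < ρ) {ε : ℝ} (hε : 0 < ε) :
    ∃ r₀ > 0, ∀ r < r₀, ∀ t, D.Adm ρ r t → ∀ i, ∀ z ∈ D.N i, ∀ w : C2, ‖w‖ ≤ 2 →
      (t, D.c i z + (r : ℂ) • D.η i z w) ∈ (F.triv (D.x i)).target ∧
        D.Cl ε r (z, w) (D.P i r t z w) := by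
  obtain ⟨L, hL, hLb⟩ := D.exists_bound
  obtain ⟨ρ₁, hρ₁, hst⟩ := D.exists_strict (ε := ε / (4 * L ^ 2)) (by positivity)
  refine ⟨min (min ρ ρ₁ / (2 * L)) (ε / (4 * L)), by positivity, fun r hr t hA i z hz w hw => ?_⟩
  obtain ⟨hr0, hA⟩ := hA
  have hr1 : r < min ρ ρ₁ / (2 * L) := hr.trans_le (min_le_left _ _)
  have hr2 : r < ε / (4 * L) := hr.trans_le (min_le_right _ _)
  have hn : ‖(r : ℂ) • D.η i z w‖ ≤ r * (2 * L) := by
    rw [norm_smul, Complex.norm_real, Real.norm_of_nonneg hr0.le]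
    refine mul_le_mul_of_nonneg_left ?_ hr0.le
    refine (ContinuousLinearMap.le_opNorm _ _).trans ?_
    calc ‖D.η i z‖ * ‖w‖ ≤ L * 2 := mul_le_mul (hLb i z hz).1 hw (norm_nonneg _) hL.le
      _ = 2 * L := by ring
  have hr3 : r * (2 * L) < min ρ ρ₁ := by rwa [lt_div_iff₀ (by positivity)] at hr1
  have hκ : ‖(r : ℂ) • D.η i z w‖ ≤ ρ := hn.trans (hr3.le.trans (min_le_left _ _))
  have hκ₁ : ‖(r : ℂ) • D.η i z w‖ ≤ ρ₁ := hn.trans (hr3.le.trans (min_le_right _ _))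
  refine ⟨(hA i i z ⟨hz, hz⟩ _ hκ).1.1, fun j hj => ?_⟩
  simp only at hj
  obtain ⟨h1, h2⟩ := hA i j z ⟨hz, hj⟩ _ hκ
  refine ⟨h1.2, ?_⟩
  have h3 := hst i j z ⟨hz, hj⟩ _ hκ₁
  have hOj := D.sub j hj
  have hOi := D.sub i hz
  set κ := (r : ℂ) • D.η i z w with hκd
  have e1 : fderiv ℂ (tr F (D.x i) (D.x j) t₀) (D.c i z) κ = (r : ℂ) • D.η j z w := by
    rw [hκd, map_smul]
    congr 1
    exact (D.trans i j z hOi hOj w).symm
  have e2 : D.k j r z (D.P i r t z w) - w = ((r⁻¹ : ℝ) : ℂ) • D.ζ j z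
      ((tr F (D.x i) (D.x j) t (D.c i z + κ) - tr F (D.x i) (D.x j) t₀ (D.c i z + κ)) +
        (tr F (D.x i) (D.x j) t₀ (D.c i z + κ) - D.c j z -
          fderiv ℂ (tr F (D.x i) (D.x j) t₀) (D.c i z) κ)) := by
    rw [e1]
    have e3 : (tr F (D.x i) (D.x j) t (D.c i z + κ) - tr F (D.x i) (D.x j) t₀ (D.c i z + κ)) +
        (tr F (D.x i) (D.x j) t₀ (D.c i z + κ) - D.c j z - (r : ℂ) • D.η j z w) =
        (tr F (D.x i) (D.x j) t (D.c i z + κ) - D.c j z) - (r : ℂ) • D.η j z w := by abel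
    rw [e3, map_sub, smul_sub, map_smul, D.ζη j z hOj, smul_smul]
    have e4 : ((r⁻¹ : ℝ) : ℂ) * (r : ℂ) = 1 := by
      rw [← Complex.ofReal_mul, inv_mul_cancel₀ hr0.ne', Complex.ofReal_one]
    rw [e4, one_smul]
    rfl
  simp only
  rw [e2, norm_smul, Complex.norm_real, Real.norm_of_nonneg (inv_nonneg.2 hr0.le)]
  have h5 : ‖(tr F (D.x i) (D.x j) t (D.c i z + κ) - tr F (D.x i) (D.x j) t₀ (D.c i z + κ)) +
        (tr F (D.x i) (D.x j) t₀ (D.c i z + κ) - D.c j z -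
          fderiv ℂ (tr F (D.x i) (D.x j) t₀) (D.c i z) κ)‖ ≤ r ^ 2 + ε / (4 * L ^ 2) *
            (r * (2 * L)) := by
    refine (norm_add_le _ _).trans (add_le_add h2 (h3.trans ?_))
    exact mul_le_mul_of_nonneg_left hn (by positivity)
  calc r⁻¹ * ‖D.ζ j z _‖ ≤ r⁻¹ * (L * (r ^ 2 + ε / (4 * L ^ 2) * (r * (2 * L)))) := by
        refine mul_le_mul_of_nonneg_left ?_ (inv_nonneg.2 hr0.le)
        refine (ContinuousLinearMap.le_opNorm _ _).trans ?_
        exact mul_le_mul (hLb j z hj).2 h5 (norm_nonneg _) hL.le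
    _ = L * r + ε / 2 := by
        field_simp
        ring
    _ < ε := by
        have h6 : r * (4 * L) < ε := by rwa [lt_div_iff₀ (by positivity)] at hr2
        linarith

end Tube

end Vale.Agent.P290.H805
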