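import Vale.Agent.P290.H805.Deform
import Vale.Agent.P290.H245.GL2

/-! Existence of coordinates along a holomorphic map into a fibre, and the deformation lemma. -/

open Set Filter Metric
open scoped Topology NNReal ContDiff

namespace Vale.Agent.P290.H805

open Vale.Agent.P290.All Vale.Agent.P290 Vale.Agent.P290.K Vale.Agent.P290.H580

variable {T E : Type} [TopologicalSpace T] [TopologicalSpace E] {F : Family T E}

/-- `(t, v)` belongs to the domain of the transition map from `x` to `x'` -/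
def Dm (F : Family T E) (x x' : E) (t : T) (v : C2) : Prop :=
  (t, v) ∈ (F.triv x).target ∧ (F.triv x).symm (t, v) ∈ (F.triv x').source

theorem Dm.contDiffAt {x x' : E} {t : T} {v : C2} (h : Dm F x x' t v) :
    ContDiffAt ℂ ω (tr F x x' t) v := F.hol _ _ t v h.1 h.2

theorem Dm.triv_eq {x x' : E} {t : T} {v : C2} (h : Dm F x x' t v) :
    F.triv x' ((F.triv x).symm (t, v)) = (t, tr F x x' t v) := by
  rw [F.mk_eq _ h.2, F.p_symm x h.1]; rfl

theorem Dm.mem_target {x x' : E} {t : T} {v : C2} (h : Dm F x x' t v) :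
    (t, tr F x x' t v) ∈ (F.triv x').target := by
  rw [← h.triv_eq]; exact (F.triv x').map_source h.2

theorem Dm.symm_tr {x x' : E} {t : T} {v : C2} (h : Dm F x x' t v) :
    (F.triv x').symm (t, tr F x x' t v) = (F.triv x).symm (t, v) := by
  rw [← h.triv_eq, (F.triv x').left_inv h.2]

theorem Dm.eventually {x x' : E} {t : T} {v : C2} (h : Dm F x x' t v) :
    ∀ᶠ w in 𝓝 v, Dm F x x' t w := by
  have h1 : IsOpen ((F.triv x).target ∩ (F.triv x).symm ⁻¹' (F.triv x').source) :=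
    (F.triv x).symm.isOpen_inter_preimage (F.triv x').open_source
  have h2 : ContinuousAt (fun w : C2 => ((t, w) : T × C2)) v := by fun_prop
  exact h2.eventually (h1.mem_nhds h)

/-- the cocycle rule for the derivatives of the transition maps -/
theorem Dm.fderiv_comp {x x' x'' : E} {t : T} {v : C2} (h : Dm F x x' t v) (h' : Dm F x x'' t v) :
    fderiv ℂ (tr F x x'' t) v =
      (fderiv ℂ (tr F x' x'' t) (tr F x x' t v)).comp (fderiv ℂ (tr F x x' t) v) := by
  have h1 : Dm F x' x'' t (tr F x x' t v) := by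
    refine ⟨h.mem_target, ?_⟩
    rw [h.symm_tr]; exact h'.2
  have h2 : tr F x x'' t =ᶠ[𝓝 v] fun w => tr F x' x'' t (tr F x x' t w) := by
    filter_upwards [h.eventually] with w hw
    simp only [tr]
    have := hw.symm_tr
    rw [tr] at this
    rw [this]
  rw [h2.fderiv_eq]
  exact _root_.fderiv_comp v (h1.contDiffAt.differentiableAt (by simp))
    (h.contDiffAt.differentiableAt (by simp))

theorem Dm.fderiv_self {x : E} {t : T} {v : C2} (h : (t, v) ∈ (F.triv x).target) :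
    fderiv ℂ (tr F x x t) v = ContinuousLinearMap.id ℂ C2 := by
  have h1 : Dm F x x t v := ⟨h, (F.triv x).map_target h⟩
  have h2 : tr F x x t =ᶠ[𝓝 v] id := by
    filter_upwards [h1.eventually] with w hw
    simp only [tr, (F.triv x).right_inv hw.1, id]
  rw [h2.fderiv_eq, fderiv_id]

theorem Dm.det_ne {x x' : E} {t : T} {v : C2} (h : Dm F x x' t v) :
    (fderiv ℂ (tr F x x' t) v).det ≠ 0 := by
  have h1 : Dm F x x t v := ⟨h.1, (F.triv x).map_target h.1⟩
  have h2 := h.fderiv_comp h1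
  rw [Dm.fderiv_self h.1] at h2
  intro h0
  have h3 := congrArg ContinuousLinearMap.det h2
  have h4 : ((fderiv ℂ (tr F x' x t) (tr F x x' t v)).comp (fderiv ℂ (tr F x x' t) v)).det =
      (fderiv ℂ (tr F x' x t) (tr F x x' t v)).det * (fderiv ℂ (tr F x x' t) v).det := by
    simp only [ContinuousLinearMap.det, ContinuousLinearMap.toLinearMap_comp, LinearMap.det_comp]
  rw [h4, h0, mul_zero] at h3
  simp [ContinuousLinearMap.det] at h3

variable {V : Type} [NormedAddCommGroup V] [NormedSpace ℂ V] {t₀ : T}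

/-- coordinates along a holomorphic map near a compact convex set -/
theorem exists_tube [FiniteDimensional ℂ V] {K : Set V} (hK : Good K) {u₀ : V → E}
    (hu : ∀ᶠ z in 𝓝ˢ K, FH F t₀ u₀ z) :
    ∃ D : Tube F V t₀, D.u₀ = u₀ ∧ K ⊆ ⋃ j, interior (D.N j) := by
  classical
  have : ProperSpace V := FiniteDimensional.proper ℂ V
  obtain ⟨R, hRo, hKR, hR⟩ := mem_nhdsSet_iff_exists.1 hu
  have hR' : ∀ z ∈ R, FH F t₀ u₀ z := fun z hz => hR hz
  have huc : ContinuousOn u₀ R := fun z hz => (hR' z hz).2.1.continuousWithinAt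
  -- the open sets
  set O : V → Set V := fun a => R ∩ u₀ ⁻¹' (F.triv (u₀ a)).source with hO
  have hOo : ∀ a, IsOpen (O a) := fun a => huc.isOpen_inter_preimage hRo (F.triv (u₀ a)).open_source
  have hself : ∀ a ∈ R, a ∈ O a := fun a ha => ⟨ha, F.mem _⟩
  have htriv : ∀ a, ∀ z ∈ O a, F.triv (u₀ a) (u₀ z) = (t₀, (F.triv (u₀ a) (u₀ z)).2) := by
    intro a z hz
    rw [F.mk_eq _ hz.2, (hR' z hz.1).1.self_of_nhds]
  have hdm : ∀ a b, ∀ z ∈ O a, z ∈ O b → Dm F (u₀ a) (u₀ b) t₀ (F.triv (u₀ a) (u₀ z)).2 := by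
    intro a b z ha hb
    refine ⟨?_, ?_⟩
    · rw [← htriv a z ha]; exact (F.triv (u₀ a)).map_source ha.2
    · rw [← htriv a z ha, (F.triv (u₀ a)).left_inv ha.2]; exact hb.2
  have htr : ∀ a b, ∀ z ∈ O a, z ∈ O b →
      tr F (u₀ a) (u₀ b) t₀ (F.triv (u₀ a) (u₀ z)).2 = (F.triv (u₀ b) (u₀ z)).2 := by
    intro a b z ha hb
    rw [tr, ← htriv a z ha, (F.triv (u₀ a)).left_inv ha.2]
  obtain ⟨θ, hθ⟩ := hK.cousinGL O hOo (fun z hz => mem_iUnion.2 ⟨z, hself z (hKR hz)⟩)
    (fun a b z => fderiv ℂ (tr F (u₀ a) (u₀ b) t₀) (F.triv (u₀ a) (u₀ z)).2)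
    (fun a b z hz => by
      have h1 := hdm a b z hz.1 hz.2
      refine ⟨?_, h1.det_ne⟩
      have h2 : DifferentiableAt ℂ (fderiv ℂ (tr F (u₀ a) (u₀ b) t₀))
          (F.triv (u₀ a) (u₀ z)).2 :=
        (h1.contDiffAt.fderiv_right (m := 1) (by simp)).differentiableAt (by simp)
      exact DifferentiableAt.comp (g := fderiv ℂ (tr F (u₀ a) (u₀ b) t₀))
        (f := fun z => (F.triv (u₀ a) (u₀ z)).2) z h2 ((hR' z hz.1.1).diff hz.1.2))
    (fun a b c z hz => by
      have h1 := (hdm a b z hz.1.1 hz.1.2).fderiv_comp (hdm a c z hz.1.1 hz.2)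
      rw [htr a b z hz.1.1 hz.1.2] at h1
      exact h1)
  obtain ⟨R₁, hR₁o, hKR₁, hR₁⟩ := mem_nhdsSet_iff_exists.1 hθ
  have hR₁' : ∀ z ∈ R₁, ∀ a, z ∈ O a → DifferentiableAt ℂ (θ a) z ∧ (θ a z).det ≠ 0 ∧
      ∀ b, z ∈ O b → θ b z =
        (fderiv ℂ (tr F (u₀ a) (u₀ b) t₀) (F.triv (u₀ a) (u₀ z)).2).comp (θ a z) :=
    fun z hz => hR₁ hz
  -- the compact cover
  have hball : ∀ z ∈ K, ∃ s > 0, closedBall z s ⊆ O z ∩ R₁ := by
    intro z hz
    obtain ⟨s, hs, h⟩ := Metric.nhds_basis_closedBall.mem_iff.1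
      (((hOo z).inter hR₁o).mem_nhds ⟨hself z (hKR hz), hKR₁ hz⟩)
    exact ⟨s, hs, h⟩
  choose! s hs hsub using hball
  obtain ⟨J, hJK, hcov⟩ := hK.1.elim_nhds_subcover (fun z => ball z (s z))
    (fun z hz => ball_mem_nhds z (hs z hz))
  refine ⟨{ u₀ := u₀, J := J, finite := inferInstance, x := fun j => u₀ j.1,
            O := fun j => O j.1 ∩ R₁, N := fun j => closedBall j.1 (s j.1)
            isOpen := fun j => (hOo j.1).inter hR₁o
            compact := fun j => isCompact_closedBall _ _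
            sub := fun j => hsub j.1 (hJK j.1 j.2)
            hol := fun j z hz => hR' z hz.1.1
            src := fun j z hz => hz.1.2
            η := fun j z => θ j.1 z
            ζ := fun j z => (θ j.1 z).inverse
            η_diff := fun j z hz => (hR₁' z hz.2 j.1 hz.1).1
            ζ_diff := fun j z hz => ?_
            ζη := fun j z hz v => ?_
            ηζ := fun j z hz v => ?_
            trans := fun i j z hi hj v => ?_ }, rfl, ?_⟩
  · obtain ⟨h1, h2, -⟩ := hR₁' z hz.2 j.1 hz.1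
    have h3 : ContDiffAt ℂ 1 ContinuousLinearMap.inverse (θ j.1 z) := by
      have := contDiffAt_map_inverse (𝕜 := ℂ) (n := 1)
        ((θ j.1 z).toContinuousLinearEquivOfDetNeZero h2)
      rwa [ContinuousLinearMap.coe_toContinuousLinearEquivOfDetNeZero] at this
    exact DifferentiableAt.comp (g := ContinuousLinearMap.inverse) (f := fun z => θ j.1 z) z
      (h3.differentiableAt one_ne_zero) h1
  · obtain ⟨h1, h2, -⟩ := hR₁' z hz.2 j.1 hz.1
    have h3 : (θ j.1 z).inverse =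
        (((θ j.1 z).toContinuousLinearEquivOfDetNeZero h2).symm : C2 →L[ℂ] C2) := by
      rw [← ContinuousLinearMap.inverse_equiv,
        ContinuousLinearMap.coe_toContinuousLinearEquivOfDetNeZero]
    rw [h3]
    exact ((θ j.1 z).toContinuousLinearEquivOfDetNeZero h2).symm_apply_apply v
  · obtain ⟨h1, h2, -⟩ := hR₁' z hz.2 j.1 hz.1
    have h3 : (θ j.1 z).inverse =
        (((θ j.1 z).toContinuousLinearEquivOfDetNeZero h2).symm : C2 →L[ℂ] C2) := by
      rw [← ContinuousLinearMap.inverse_equiv,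
        ContinuousLinearMap.coe_toContinuousLinearEquivOfDetNeZero]
    rw [h3]
    exact ((θ j.1 z).toContinuousLinearEquivOfDetNeZero h2).apply_symm_apply v
  · obtain ⟨-, -, h1⟩ := hR₁' z hi.2 i.1 hi.1
    rw [h1 j.1 hj.1]
    rfl
  · intro z hz
    obtain ⟨i, hi, hzi⟩ := mem_iUnion₂.1 (hcov hz)
    exact mem_iUnion.2 ⟨⟨i, hi⟩, interior_maximal ball_subset_closedBall isOpen_ball hzi⟩

/-- **Deformation lemma.** A holomorphic map from a neighbourhood of a compact convex set to a fibre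
can be deformed to the nearby fibres. -/
theorem deformation [FiniteDimensional ℂ V] {K : Set V} (hK : Good K) {u₀ : V → E}
    (hu : ∀ᶠ z in 𝓝ˢ K, FH F t₀ u₀ z) (𝒪 : Set (V × E)) (h𝒪 : ∀ z ∈ K, 𝒪 ∈ 𝓝 (z, u₀ z)) :
    ∀ᶠ t in 𝓝 t₀, ∃ u : V → E, (∀ᶠ z in 𝓝ˢ K, FH F t u z) ∧ ∀ z ∈ K, (z, u z) ∈ 𝒪 := by
  obtain ⟨D, rfl, hD⟩ := exists_tube hK hu
  exact D.deform hK hD 𝒪 h𝒪

end Vale.Agent.P290.H805
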